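import Crest.Agent.R163.Q3.D.b4G.P0_0
import Crest.Agent.R163.Q3.D.b4G.P0_1

set_option autoImplicit false
set_option maxRecDepth 100000
set_option linter.all false

namespace Crest.Agent.R163.b4G

theorem o0_9 : Ok par f9 Box3.unit C0 :=
  (Ok.part 394878654663163177256018842969842079795938616035133817035223229173829490559281281920696319 p0_9_12 (Ok.split 0 (Ok.part 230801328831939973976848234205589982413656639243403221731379611 p0_9_8 (Ok.split 1 p0_9_7 (Ok.part 340282366940745504093093613334761046274 p0_9_6 (Ok.split 0 p0_9_5 (Ok.part 315377420799926109109898758973620371919119 p0_9_4 (Ok.split 1 p0_9_3 (Ok.part 1180591761454899658752 p0_9_2 (Ok.split 0 p0_9_0 p0_9_1)))))))) (Ok.part 3291009114642412084309938365114701009965314702205345954141111149 p0_9_11 (Ok.split 1 p0_9_9 p0_9_10))))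
theorem o0_8 : Ok par f8 Box3.unit C0 :=
  (Ok.part 382942866546228044144799586717782659857893108392564387470874231142914631050751901343383551 p0_8_6 (Ok.split 0 p0_8_5 (Ok.part 368230261674382736878728641818130852703463538691 p0_8_4 (Ok.split 1 p0_8_3 (Ok.part 79436157419467655435888562595354894916435551 p0_8_2 (Ok.split 0 p0_8_0 p0_8_1))))))
theorem o0_7 : Ok par f7 Box3.unit C0 :=
  p0_7_0
theorem o0_6 : Ok par f6 Box3.unit C0 :=
  p0_6_0
theorem o0_5 : Ok par f5 Box3.unit C0 :=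
  (Ok.part 509204113568206492655856050392225721550709189795004305099596996783597381065011910708643839 p0_5_0 p0_5_1)
theorem o0_4 : Ok par f4 Box3.unit C0 :=
  (Ok.part 275635452615803555935887721072627920212478315377076926285412996849963473148975788394020607 p0_4_2 (Ok.split 0 p0_4_0 p0_4_1))
theorem o0_3 : Ok par f3 Box3.unit C0 :=
  (Ok.part 382959409615780368632174740865890854188543008306716847578338775130275565888732048182476767 p0_3_2 (Ok.split 0 p0_3_0 p0_3_1))
theorem o0_2 : Ok par f2 Box3.unit C0 :=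
  p0_2_0
theorem o0_1 : Ok par f1 Box3.unit C0 :=
  (Ok.part 509242481397912764468582073554958888707134915513858295186177626859865281566174010310377391 p0_1_4 (Ok.split 0 p0_1_3 (Ok.part 9696022889933 p0_1_2 (Ok.split 0 p0_1_0 p0_1_1))))
theorem o0_0 : Ok par f0 Box3.unit C0 :=
  (Ok.part 509258994083614058405109587582353040234859482404028200132995898774985987752978319172173743 p0_0_2 (Ok.split 0 p0_0_0 p0_0_1))

theorem pt0 : PtAll par C0 :=
  PtAll.of_okD hw (OkD.cover [f0.dom,f1.dom,f2.dom,f3.dom,f4.dom,f5.dom,f6.dom,f7.dom,f8.dom,f9.dom]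
    (.split 0 (.split 0 (.split 1 (.leaf 0) (.leaf 1)) (.split 1 (.leaf 2) (.leaf 3))) (.split 1 (.split 0 (.leaf 4) (.leaf 5)) (.split 0 (.split 1 (.leaf 6) (.leaf 7)) (.split 1 (.leaf 8) (.leaf 9)))))
    (by decide +kernel)
    (List.forall_mem_cons.2 ⟨OkD.of_ok o0_0, (List.forall_mem_cons.2 ⟨OkD.of_ok o0_1, (List.forall_mem_cons.2 ⟨OkD.of_ok o0_2, (List.forall_mem_cons.2 ⟨OkD.of_ok o0_3, (List.forall_mem_cons.2 ⟨OkD.of_ok o0_4, (List.forall_mem_cons.2 ⟨OkD.of_ok o0_5, (List.forall_mem_cons.2 ⟨OkD.of_ok o0_6, (List.forall_mem_cons.2 ⟨OkD.of_ok o0_7, (List.forall_mem_cons.2 ⟨OkD.of_ok o0_8, (List.forall_mem_cons.2 ⟨OkD.of_ok o0_9, (fun _ h => nomatch h)⟩)⟩)⟩)⟩)⟩)⟩)⟩)⟩)⟩)⟩))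

end Crest.Agent.R163.b4G
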