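import Crest.Agent.R163.Q3.D.b4G.S1
import Crest.Agent.R163.Q3.D.b4G.F8
import Crest.Agent.R163.Q3.D.b4G.F9

set_option autoImplicit false
set_option maxRecDepth 100000
set_option linter.all false
set_option Elab.async false

namespace Crest.Agent.R163.b4G

theorem p1_8_4 : Ok par f8 ((Box3.unit.r 1).r 0) (selB 0 (selB 0 C1 373143131247031210597970112252383071520537455254334460658910007873024578612182604758911) 3338078343226355447194819042064466287328231591772160) :=
  Ok.run hw hf8 ⟨422,25,25,1,10⟩ 59
    (.part 174224571863520493293247795626236012543999 (.chk false 0) (.split 1 (.part 3584 (.chk false 0) (.split 0 (.part 73 (.chk false 0) (.split 0 (.split 1 (.part 22 (.chk false 0) (.split 0 (.part 5 (.chk false 0) (.split 1 (.chk false 0) (.chk false 0))) (.chk false 0))) (.chk false 0)) (.chk false 0))) (.chk false 0))) (.chk false 0)))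
    (by decide +kernel)

theorem p1_8_5 : Ok par f8 (Box3.unit.r 1) (selB 1 (selB 0 C1 373143131247031210597970112252383071520537455254334460658910007873024578612182604758911) 3338078343226355447194819042064466287328231591772160) :=
  Ok.run hw hf8 ⟨260,25,25,1,10⟩ 59
    (.chk false 0)
    (by decide +kernel)

theorem p1_8_6 : Ok par f8 Box3.unit (selB 1 C1 373143131247031210597970112252383071520537455254334460658910007873024578612182604758911) :=
  Ok.run hw hf8 ⟨222,25,25,1,10⟩ 59
    (.chk false 0)
    (by decide +kernel)

theorem p1_9_0 : Ok par f9 Box3.unit (selB 1 C1 404075013777293010161411740153959307002659047334476185622391669944605287377044567242782) :=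
  Ok.run hw hf9 ⟨222,25,25,1,10⟩ 59
    (.chk false 0)
    (by decide +kernel)

theorem p1_9_1 : Ok par f9 Box3.unit (selB 0 C1 404075013777293010161411740153959307002659047334476185622391669944605287377044567242782) :=
  Ok.run hw hf9 ⟨452,25,25,1,10⟩ 59
    (.split 0 (.part 5024312262100555776880684593935159 (.chk false 0) (.split 1 (.part 2251799813685243 (.chk false 0) (.split 0 (.chk false 0) (.chk false 0))) (.part 536871061 (.chk false 0) (.split 0 (.part 61984858961919 (.chk false 0) (.split 1 (.chk false 0) (.part 448 (.chk false 0) (.split 0 (.chk false 0) (.part 51 (.chk false 0) (.split 1 (.chk false 0) (.part 1 (.chk false 0) (.split 0 (.chk false 0) (.split 1 (.chk false 0) (.chk false 0)))))))))) (.part 70368744177407 (.chk false 0) (.split 1 (.chk false 0) (.split 0 (.chk false 0) (.chk false 0)))))))) (.chk false 0))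
    (by decide +kernel)


end Crest.Agent.R163.b4G
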