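import Crest.Agent.R163.Q3.D.b4G.P1_0
import Crest.Agent.R163.Q3.D.b4G.P1_1

set_option autoImplicit false
set_option maxRecDepth 100000
set_option linter.all false

namespace Crest.Agent.R163.b4G

theorem o1_9 : Ok par f9 Box3.unit C1 :=
  (Ok.part 404075013777293010161411740153959307002659047334476185622391669944605287377044567242782 p1_9_0 p1_9_1)
theorem o1_8 : Ok par f8 Box3.unit C1 :=
  (Ok.part 373143131247031210597970112252383071520537455254334460658910007873024578612182604758911 p1_8_6 (Ok.split 1 (Ok.part 3039923411224826838657723134105712592760182808283143 p1_8_2 (Ok.split 0 p1_8_0 p1_8_1)) (Ok.part 3338078343226355447194819042064466287328231591772160 p1_8_5 (Ok.split 0 p1_8_3 p1_8_4))))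
theorem o1_7 : Ok par f7 Box3.unit C1 :=
  p1_7_0
theorem o1_6 : Ok par f6 Box3.unit C1 :=
  p1_6_0
theorem o1_5 : Ok par f5 Box3.unit C1 :=
  (Ok.part 495441038778147460414071314704910092522248903700778614830979892299444608219545752878975 p1_5_2 (Ok.split 1 p1_5_0 p1_5_1))
theorem o1_4 : Ok par f4 Box3.unit C1 :=
  (Ok.part 497284107802251207394340035800784944223069026379816759787634316828929658756424513093631 p1_4_3 (Ok.split 1 (Ok.split 0 p1_4_0 p1_4_1) p1_4_2))
theorem o1_3 : Ok par f3 Box3.unit C1 :=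
  (Ok.part 388981147275515258127778689300481983385820233050013207178247426037688731900560975855615 p1_3_3 (Ok.split 0 (Ok.part 42817886029747367058028994374029365415518243 p1_3_0 p1_3_1) p1_3_2))
theorem o1_2 : Ok par f2 Box3.unit C1 :=
  p1_2_0
theorem o1_1 : Ok par f1 Box3.unit C1 :=
  p1_1_0
theorem o1_0 : Ok par f0 Box3.unit C1 :=
  p1_0_0

theorem pt1 : PtAll par C1 :=
  PtAll.of_okD hw (OkD.cover [f0.dom,f1.dom,f2.dom,f3.dom,f4.dom,f5.dom,f6.dom,f7.dom,f8.dom,f9.dom]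
    (.split 0 (.split 0 (.split 1 (.leaf 0) (.leaf 1)) (.split 1 (.leaf 2) (.leaf 3))) (.split 1 (.split 0 (.leaf 4) (.leaf 5)) (.split 0 (.split 1 (.leaf 6) (.leaf 7)) (.split 1 (.leaf 8) (.leaf 9)))))
    (by decide +kernel)
    (List.forall_mem_cons.2 ⟨OkD.of_ok o1_0, (List.forall_mem_cons.2 ⟨OkD.of_ok o1_1, (List.forall_mem_cons.2 ⟨OkD.of_ok o1_2, (List.forall_mem_cons.2 ⟨OkD.of_ok o1_3, (List.forall_mem_cons.2 ⟨OkD.of_ok o1_4, (List.forall_mem_cons.2 ⟨OkD.of_ok o1_5, (List.forall_mem_cons.2 ⟨OkD.of_ok o1_6, (List.forall_mem_cons.2 ⟨OkD.of_ok o1_7, (List.forall_mem_cons.2 ⟨OkD.of_ok o1_8, (List.forall_mem_cons.2 ⟨OkD.of_ok o1_9, (fun _ h => nomatch h)⟩)⟩)⟩)⟩)⟩)⟩)⟩)⟩)⟩)⟩))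

end Crest.Agent.R163.b4G
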