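import Crest.Agent.R163.Q3.D.b4G.P10_0

set_option autoImplicit false
set_option maxRecDepth 100000
set_option linter.all false

namespace Crest.Agent.R163.b4G

theorem o10_9 : Ok par f9 Box3.unit C10 :=
  p10_9_0
theorem o10_8 : Ok par f8 Box3.unit C10 :=
  p10_8_0
theorem o10_7 : Ok par f7 Box3.unit C10 :=
  p10_7_0
theorem o10_6 : Ok par f6 Box3.unit C10 :=
  p10_6_0
theorem o10_5 : Ok par f5 Box3.unit C10 :=
  (Ok.part 244256464947141609370155546314319529275401765178521046032098854583715402890902323208 p10_5_4 (Ok.split 1 p10_5_3 (Ok.part 19449452489133580077000930402810888734885565310602225779510216459900395257856 p10_5_2 (Ok.split 1 p10_5_0 p10_5_1))))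
theorem o10_4 : Ok par f4 Box3.unit C10 :=
  (Ok.part 23801576897982822720917940168364237595772972179243261499606570194231555888387142119833611 p10_4_2 (Ok.split 1 p10_4_0 p10_4_1))
theorem o10_3 : Ok par f3 Box3.unit C10 :=
  p10_3_0
theorem o10_2 : Ok par f2 Box3.unit C10 :=
  p10_2_0
theorem o10_1 : Ok par f1 Box3.unit C10 :=
  p10_1_0
theorem o10_0 : Ok par f0 Box3.unit C10 :=
  p10_0_0

theorem pt10 : PtAll par C10 :=
  PtAll.of_okD hw (OkD.cover [f0.dom,f1.dom,f2.dom,f3.dom,f4.dom,f5.dom,f6.dom,f7.dom,f8.dom,f9.dom]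
    (.split 0 (.split 0 (.split 1 (.leaf 0) (.leaf 1)) (.split 1 (.leaf 2) (.leaf 3))) (.split 1 (.split 0 (.leaf 4) (.leaf 5)) (.split 0 (.split 1 (.leaf 6) (.leaf 7)) (.split 1 (.leaf 8) (.leaf 9)))))
    (by decide +kernel)
    (List.forall_mem_cons.2 ⟨OkD.of_ok o10_0, (List.forall_mem_cons.2 ⟨OkD.of_ok o10_1, (List.forall_mem_cons.2 ⟨OkD.of_ok o10_2, (List.forall_mem_cons.2 ⟨OkD.of_ok o10_3, (List.forall_mem_cons.2 ⟨OkD.of_ok o10_4, (List.forall_mem_cons.2 ⟨OkD.of_ok o10_5, (List.forall_mem_cons.2 ⟨OkD.of_ok o10_6, (List.forall_mem_cons.2 ⟨OkD.of_ok o10_7, (List.forall_mem_cons.2 ⟨OkD.of_ok o10_8, (List.forall_mem_cons.2 ⟨OkD.of_ok o10_9, (fun _ h => nomatch h)⟩)⟩)⟩)⟩)⟩)⟩)⟩)⟩)⟩)⟩))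

end Crest.Agent.R163.b4G
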