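import Crest.Agent.R163.Q3.D.b4G.P11_0

set_option autoImplicit false
set_option maxRecDepth 100000
set_option linter.all false

namespace Crest.Agent.R163.b4G

theorem o11_9 : Ok par f9 Box3.unit C11 :=
  p11_9_0
theorem o11_8 : Ok par f8 Box3.unit C11 :=
  p11_8_0
theorem o11_7 : Ok par f7 Box3.unit C11 :=
  p11_7_0
theorem o11_6 : Ok par f6 Box3.unit C11 :=
  p11_6_0
theorem o11_5 : Ok par f5 Box3.unit C11 :=
  (Ok.part 47595388916147311412606573904378258189103600150754744701802503334887692118617370134532 p11_5_4 (Ok.split 1 p11_5_3 (Ok.part 367504459073370624615681387661257595340937622374738665418118133877814856704 p11_5_2 (Ok.split 1 p11_5_0 p11_5_1))))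
theorem o11_4 : Ok par f4 Box3.unit C11 :=
  (Ok.part 11931418919688774380870916029956297966850534413288257011917570594939583014028895794281836 p11_4_2 (Ok.split 1 p11_4_0 p11_4_1))
theorem o11_3 : Ok par f3 Box3.unit C11 :=
  p11_3_0
theorem o11_2 : Ok par f2 Box3.unit C11 :=
  p11_2_0
theorem o11_1 : Ok par f1 Box3.unit C11 :=
  p11_1_0
theorem o11_0 : Ok par f0 Box3.unit C11 :=
  p11_0_0

theorem pt11 : PtAll par C11 :=
  PtAll.of_okD hw (OkD.cover [f0.dom,f1.dom,f2.dom,f3.dom,f4.dom,f5.dom,f6.dom,f7.dom,f8.dom,f9.dom]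
    (.split 0 (.split 0 (.split 1 (.leaf 0) (.leaf 1)) (.split 1 (.leaf 2) (.leaf 3))) (.split 1 (.split 0 (.leaf 4) (.leaf 5)) (.split 0 (.split 1 (.leaf 6) (.leaf 7)) (.split 1 (.leaf 8) (.leaf 9)))))
    (by decide +kernel)
    (List.forall_mem_cons.2 ⟨OkD.of_ok o11_0, (List.forall_mem_cons.2 ⟨OkD.of_ok o11_1, (List.forall_mem_cons.2 ⟨OkD.of_ok o11_2, (List.forall_mem_cons.2 ⟨OkD.of_ok o11_3, (List.forall_mem_cons.2 ⟨OkD.of_ok o11_4, (List.forall_mem_cons.2 ⟨OkD.of_ok o11_5, (List.forall_mem_cons.2 ⟨OkD.of_ok o11_6, (List.forall_mem_cons.2 ⟨OkD.of_ok o11_7, (List.forall_mem_cons.2 ⟨OkD.of_ok o11_8, (List.forall_mem_cons.2 ⟨OkD.of_ok o11_9, (fun _ h => nomatch h)⟩)⟩)⟩)⟩)⟩)⟩)⟩)⟩)⟩)⟩))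

end Crest.Agent.R163.b4G
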