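import Crest.Agent.R163.Q3.D.b4G.P12_0

set_option autoImplicit false
set_option maxRecDepth 100000
set_option linter.all false

namespace Crest.Agent.R163.b4G

theorem o12_9 : Ok par f9 Box3.unit C12 :=
  p12_9_0
theorem o12_8 : Ok par f8 Box3.unit C12 :=
  p12_8_0
theorem o12_7 : Ok par f7 Box3.unit C12 :=
  p12_7_0
theorem o12_6 : Ok par f6 Box3.unit C12 :=
  p12_6_0
theorem o12_5 : Ok par f5 Box3.unit C12 :=
  (Ok.part 7778265971936821697543556073460446438996297959634106645677674568409445791667830396928 p12_5_4 (Ok.split 1 p12_5_3 (Ok.part 55219026587981577720131267154628967128375145562618127660413386803642368 p12_5_2 (Ok.split 1 p12_5_0 p12_5_1))))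
theorem o12_4 : Ok par f4 Box3.unit C12 :=
  (Ok.part 13211712635107222543505778276375172359461412879436486348696549407186464335201462917132 p12_4_2 (Ok.split 1 p12_4_0 p12_4_1))
theorem o12_3 : Ok par f3 Box3.unit C12 :=
  p12_3_0
theorem o12_2 : Ok par f2 Box3.unit C12 :=
  p12_2_0
theorem o12_1 : Ok par f1 Box3.unit C12 :=
  p12_1_0
theorem o12_0 : Ok par f0 Box3.unit C12 :=
  p12_0_0

theorem pt12 : PtAll par C12 :=
  PtAll.of_okD hw (OkD.cover [f0.dom,f1.dom,f2.dom,f3.dom,f4.dom,f5.dom,f6.dom,f7.dom,f8.dom,f9.dom]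
    (.split 0 (.split 0 (.split 1 (.leaf 0) (.leaf 1)) (.split 1 (.leaf 2) (.leaf 3))) (.split 1 (.split 0 (.leaf 4) (.leaf 5)) (.split 0 (.split 1 (.leaf 6) (.leaf 7)) (.split 1 (.leaf 8) (.leaf 9)))))
    (by decide +kernel)
    (List.forall_mem_cons.2 ⟨OkD.of_ok o12_0, (List.forall_mem_cons.2 ⟨OkD.of_ok o12_1, (List.forall_mem_cons.2 ⟨OkD.of_ok o12_2, (List.forall_mem_cons.2 ⟨OkD.of_ok o12_3, (List.forall_mem_cons.2 ⟨OkD.of_ok o12_4, (List.forall_mem_cons.2 ⟨OkD.of_ok o12_5, (List.forall_mem_cons.2 ⟨OkD.of_ok o12_6, (List.forall_mem_cons.2 ⟨OkD.of_ok o12_7, (List.forall_mem_cons.2 ⟨OkD.of_ok o12_8, (List.forall_mem_cons.2 ⟨OkD.of_ok o12_9, (fun _ h => nomatch h)⟩)⟩)⟩)⟩)⟩)⟩)⟩)⟩)⟩)⟩))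

end Crest.Agent.R163.b4G
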