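import Crest.Agent.R163.Q3.D.b4G.P13_0

set_option autoImplicit false
set_option maxRecDepth 100000
set_option linter.all false

namespace Crest.Agent.R163.b4G

theorem o13_9 : Ok par f9 Box3.unit C13 :=
  p13_9_0
theorem o13_8 : Ok par f8 Box3.unit C13 :=
  p13_8_0
theorem o13_7 : Ok par f7 Box3.unit C13 :=
  p13_7_0
theorem o13_6 : Ok par f6 Box3.unit C13 :=
  p13_6_0
theorem o13_5 : Ok par f5 Box3.unit C13 :=
  (Ok.part 23871530526623212399114364236271749199110517059426980914566778541361816225241793273528832 p13_5_5 (Ok.split 1 p13_5_4 (Ok.part 4070815853487503930236434521677403798850004812640928240887350921307648950542 p13_5_3 (Ok.split 1 (Ok.part 5317138641189403843830907633642797488535094416007768659739439894462 p13_5_0 p13_5_1) p13_5_2))))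
theorem o13_4 : Ok par f4 Box3.unit C13 :=
  (Ok.part 23889086757320203207071065056618981836021812481729481277915856045765377379207041495872510 p13_4_2 (Ok.split 1 p13_4_0 p13_4_1))
theorem o13_3 : Ok par f3 Box3.unit C13 :=
  (Ok.part 23887083261512835696333974649830008143703413673695015823846467080551296695944891363754879 p13_3_0 p13_3_1)
theorem o13_2 : Ok par f2 Box3.unit C13 :=
  p13_2_0
theorem o13_1 : Ok par f1 Box3.unit C13 :=
  p13_1_0
theorem o13_0 : Ok par f0 Box3.unit C13 :=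
  p13_0_0

theorem pt13 : PtAll par C13 :=
  PtAll.of_okD hw (OkD.cover [f0.dom,f1.dom,f2.dom,f3.dom,f4.dom,f5.dom,f6.dom,f7.dom,f8.dom,f9.dom]
    (.split 0 (.split 0 (.split 1 (.leaf 0) (.leaf 1)) (.split 1 (.leaf 2) (.leaf 3))) (.split 1 (.split 0 (.leaf 4) (.leaf 5)) (.split 0 (.split 1 (.leaf 6) (.leaf 7)) (.split 1 (.leaf 8) (.leaf 9)))))
    (by decide +kernel)
    (List.forall_mem_cons.2 ⟨OkD.of_ok o13_0, (List.forall_mem_cons.2 ⟨OkD.of_ok o13_1, (List.forall_mem_cons.2 ⟨OkD.of_ok o13_2, (List.forall_mem_cons.2 ⟨OkD.of_ok o13_3, (List.forall_mem_cons.2 ⟨OkD.of_ok o13_4, (List.forall_mem_cons.2 ⟨OkD.of_ok o13_5, (List.forall_mem_cons.2 ⟨OkD.of_ok o13_6, (List.forall_mem_cons.2 ⟨OkD.of_ok o13_7, (List.forall_mem_cons.2 ⟨OkD.of_ok o13_8, (List.forall_mem_cons.2 ⟨OkD.of_ok o13_9, (fun _ h => nomatch h)⟩)⟩)⟩)⟩)⟩)⟩)⟩)⟩)⟩)⟩))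

end Crest.Agent.R163.b4G
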