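import Crest.Agent.R163.Q3.D.b4G.P14_0

set_option autoImplicit false
set_option maxRecDepth 100000
set_option linter.all false

namespace Crest.Agent.R163.b4G

theorem o14_9 : Ok par f9 Box3.unit C14 :=
  p14_9_0
theorem o14_8 : Ok par f8 Box3.unit C14 :=
  p14_8_0
theorem o14_7 : Ok par f7 Box3.unit C14 :=
  (Ok.part 12439963725417800427165294720515657311451692295695193082994825940394065196348277033253890 p14_7_2 (Ok.split 0 p14_7_0 p14_7_1))
theorem o14_6 : Ok par f6 Box3.unit C14 :=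
  p14_6_0
theorem o14_5 : Ok par f5 Box3.unit C14 :=
  (Ok.part 497323236449590172837555812172506110577669735946009255427280645384402148161949481828352 p14_5_7 (Ok.split 1 p14_5_6 (Ok.part 474284865730519302750094695815107243562038025998873145459774009344273038740560896 p14_5_5 (Ok.split 1 (Ok.part 462686619511193129164591834860517738896580356023904254962700197835847738 p14_5_3 (Ok.split 1 p14_5_2 (Ok.part 184486789676234783662724763008730890344101477718448707 p14_5_0 p14_5_1))) p14_5_4))))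
theorem o14_4 : Ok par f4 Box3.unit C14 :=
  (Ok.part 8584915810276580556491583130921906967083800650121291304003523801371987266036019587308546 p14_4_4 (Ok.split 1 p14_4_3 (Ok.part 14336899980564056442220973921147327160658337076917114890348189 p14_4_2 (Ok.split 1 p14_4_0 p14_4_1))))
theorem o14_3 : Ok par f3 Box3.unit C14 :=
  p14_3_0
theorem o14_2 : Ok par f2 Box3.unit C14 :=
  p14_2_0
theorem o14_1 : Ok par f1 Box3.unit C14 :=
  p14_1_0
theorem o14_0 : Ok par f0 Box3.unit C14 :=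
  p14_0_0

theorem pt14 : PtAll par C14 :=
  PtAll.of_okD hw (OkD.cover [f0.dom,f1.dom,f2.dom,f3.dom,f4.dom,f5.dom,f6.dom,f7.dom,f8.dom,f9.dom]
    (.split 0 (.split 0 (.split 1 (.leaf 0) (.leaf 1)) (.split 1 (.leaf 2) (.leaf 3))) (.split 1 (.split 0 (.leaf 4) (.leaf 5)) (.split 0 (.split 1 (.leaf 6) (.leaf 7)) (.split 1 (.leaf 8) (.leaf 9)))))
    (by decide +kernel)
    (List.forall_mem_cons.2 ⟨OkD.of_ok o14_0, (List.forall_mem_cons.2 ⟨OkD.of_ok o14_1, (List.forall_mem_cons.2 ⟨OkD.of_ok o14_2, (List.forall_mem_cons.2 ⟨OkD.of_ok o14_3, (List.forall_mem_cons.2 ⟨OkD.of_ok o14_4, (List.forall_mem_cons.2 ⟨OkD.of_ok o14_5, (List.forall_mem_cons.2 ⟨OkD.of_ok o14_6, (List.forall_mem_cons.2 ⟨OkD.of_ok o14_7, (List.forall_mem_cons.2 ⟨OkD.of_ok o14_8, (List.forall_mem_cons.2 ⟨OkD.of_ok o14_9, (fun _ h => nomatch h)⟩)⟩)⟩)⟩)⟩)⟩)⟩)⟩)⟩)⟩))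

end Crest.Agent.R163.b4G
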