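import Crest.Agent.R163.Q3.D.b4G.S15
import Crest.Agent.R163.Q3.D.b4G.F7
import Crest.Agent.R163.Q3.D.b4G.F8
import Crest.Agent.R163.Q3.D.b4G.F9

set_option autoImplicit false
set_option maxRecDepth 100000
set_option linter.all false
set_option Elab.async false

namespace Crest.Agent.R163.b4G

theorem p15_7_0 : Ok par f7 (Box3.unit.l 0) (selB 0 C15 15035296804403846638459817542234971701844299018379368377650983797679340848017095081338369) :=
  Ok.run hw hf7 ⟨475,25,25,1,10⟩ 58
    (.part 1228425664014978740108730875952173481463938918352143 (.chk false 0) (.split 1 (.chk false 0) (.part 1210696707045705291661312 (.chk false 0) (.split 0 (.part 149933982909606628687871 (.chk false 0) (.split 1 (.chk false 0) (.split 0 (.chk false 0) (.part 4 (.chk false 0) (.split 1 (.chk false 0) (.split 0 (.chk false 0) (.part 1 (.chk false 0) (.split 1 (.chk false 0) (.split 0 (.chk false 0) (.chk false 0)))))))))) (.part 302028504676777919554541 (.chk false 0) (.split 1 (.chk false 0) (.part 48 (.chk false 0) (.split 0 (.part 130559 (.chk false 0) (.split 1 (.chk false 0) (.split 0 (.chk false 0)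 (.chk false 0)))) (.chk false 0)))))))))
    (by decide +kernel)

theorem p15_7_1 : Ok par f7 (Box3.unit.r 0) (selB 0 C15 15035296804403846638459817542234971701844299018379368377650983797679340848017095081338369) :=
  Ok.run hw hf7 ⟨325,25,25,1,10⟩ 58
    (.part 1496577676626844588240573268701473523897298772295679 (.chk false 0) (.split 1 (.chk false 0) (.split 0 (.chk false 0) (.chk false 0))))
    (by decide +kernel)

theorem p15_7_2 : Ok par f7 Box3.unit (selB 1 C15 15035296804403846638459817542234971701844299018379368377650983797679340848017095081338369) :=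
  Ok.run hw hf7 ⟨220,25,25,1,10⟩ 58
    (.chk false 0)
    (by decide +kernel)

theorem p15_8_0 : Ok par f8 Box3.unit C15 :=
  Ok.run hw hf8 ⟨221,25,25,1,10⟩ 58
    (.chk false 0)
    (by decide +kernel)

theorem p15_9_0 : Ok par f9 Box3.unit C15 :=
  Ok.run hw hf9 ⟨221,25,25,1,10⟩ 58
    (.chk false 0)
    (by decide +kernel)


end Crest.Agent.R163.b4G
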