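import Crest.Agent.R163.Q3.D.b4G.P15_0
import Crest.Agent.R163.Q3.D.b4G.P15_1

set_option autoImplicit false
set_option maxRecDepth 100000
set_option linter.all false

namespace Crest.Agent.R163.b4G

theorem o15_9 : Ok par f9 Box3.unit C15 :=
  p15_9_0
theorem o15_8 : Ok par f8 Box3.unit C15 :=
  p15_8_0
theorem o15_7 : Ok par f7 Box3.unit C15 :=
  (Ok.part 15035296804403846638459817542234971701844299018379368377650983797679340848017095081338369 p15_7_2 (Ok.split 0 p15_7_0 p15_7_1))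
theorem o15_6 : Ok par f6 Box3.unit C15 :=
  p15_6_0
theorem o15_5 : Ok par f5 Box3.unit C15 :=
  (Ok.part 948576046393951051799313473916030717203763578919268013863835803255163983575385600 p15_5_6 (Ok.split 1 p15_5_5 (Ok.part 54686884063264807878499298184922141973585224453410184348073757525452783617 p15_5_4 (Ok.split 1 (Ok.part 335607638181918383142125741705188228274255163639333888 p15_5_2 (Ok.split 1 p15_5_0 p15_5_1)) p15_5_3))))
theorem o15_4 : Ok par f4 Box3.unit C15 :=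
  (Ok.part 8304919948529018978088094486140102375383602608694637256256680714305765861966476753774081 p15_4_6 (Ok.split 1 p15_4_5 (Ok.part 5713240061946078549370704842206145207496585265346325872640 p15_4_4 (Ok.split 1 (Ok.part 33494745968323960417588032116848950735731983 p15_4_2 (Ok.split 0 p15_4_0 p15_4_1)) p15_4_3))))
theorem o15_3 : Ok par f3 Box3.unit C15 :=
  p15_3_0
theorem o15_2 : Ok par f2 Box3.unit C15 :=
  p15_2_0
theorem o15_1 : Ok par f1 Box3.unit C15 :=
  p15_1_0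
theorem o15_0 : Ok par f0 Box3.unit C15 :=
  p15_0_0

theorem pt15 : PtAll par C15 :=
  PtAll.of_okD hw (OkD.cover [f0.dom,f1.dom,f2.dom,f3.dom,f4.dom,f5.dom,f6.dom,f7.dom,f8.dom,f9.dom]
    (.split 0 (.split 0 (.split 1 (.leaf 0) (.leaf 1)) (.split 1 (.leaf 2) (.leaf 3))) (.split 1 (.split 0 (.leaf 4) (.leaf 5)) (.split 0 (.split 1 (.leaf 6) (.leaf 7)) (.split 1 (.leaf 8) (.leaf 9)))))
    (by decide +kernel)
    (List.forall_mem_cons.2 ⟨OkD.of_ok o15_0, (List.forall_mem_cons.2 ⟨OkD.of_ok o15_1, (List.forall_mem_cons.2 ⟨OkD.of_ok o15_2, (List.forall_mem_cons.2 ⟨OkD.of_ok o15_3, (List.forall_mem_cons.2 ⟨OkD.of_ok o15_4, (List.forall_mem_cons.2 ⟨OkD.of_ok o15_5, (List.forall_mem_cons.2 ⟨OkD.of_ok o15_6, (List.forall_mem_cons.2 ⟨OkD.of_ok o15_7, (List.forall_mem_cons.2 ⟨OkD.of_ok o15_8, (List.forall_mem_cons.2 ⟨OkD.of_ok o15_9, (fun _ h => nomatch h)⟩)⟩)⟩)⟩)⟩)⟩)⟩)⟩)⟩)⟩))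

end Crest.Agent.R163.b4G
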