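import Crest.Agent.R163.Q3.D.b4G.P2_0

set_option autoImplicit false
set_option maxRecDepth 100000
set_option linter.all false

namespace Crest.Agent.R163.b4G

theorem o2_9 : Ok par f9 Box3.unit C2 :=
  p2_9_0
theorem o2_8 : Ok par f8 Box3.unit C2 :=
  (Ok.part 31703381199865203269804556388079807325551179679600281690335849704955777544540474998505476 p2_8_2 (Ok.split 1 p2_8_0 p2_8_1))
theorem o2_7 : Ok par f7 Box3.unit C2 :=
  p2_7_0
theorem o2_6 : Ok par f6 Box3.unit C2 :=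
  p2_6_0
theorem o2_5 : Ok par f5 Box3.unit C2 :=
  (Ok.part 20436148021611870500025642710208984312061367738783725878587571068998585207009823119376318 p2_5_0 p2_5_1)
theorem o2_4 : Ok par f4 Box3.unit C2 :=
  p2_4_0
theorem o2_3 : Ok par f3 Box3.unit C2 :=
  p2_3_0
theorem o2_2 : Ok par f2 Box3.unit C2 :=
  p2_2_0
theorem o2_1 : Ok par f1 Box3.unit C2 :=
  p2_1_0
theorem o2_0 : Ok par f0 Box3.unit C2 :=
  p2_0_0

theorem pt2 : PtAll par C2 :=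
  PtAll.of_okD hw (OkD.cover [f0.dom,f1.dom,f2.dom,f3.dom,f4.dom,f5.dom,f6.dom,f7.dom,f8.dom,f9.dom]
    (.split 0 (.split 0 (.split 1 (.leaf 0) (.leaf 1)) (.split 1 (.leaf 2) (.leaf 3))) (.split 1 (.split 0 (.leaf 4) (.leaf 5)) (.split 0 (.split 1 (.leaf 6) (.leaf 7)) (.split 1 (.leaf 8) (.leaf 9)))))
    (by decide +kernel)
    (List.forall_mem_cons.2 ⟨OkD.of_ok o2_0, (List.forall_mem_cons.2 ⟨OkD.of_ok o2_1, (List.forall_mem_cons.2 ⟨OkD.of_ok o2_2, (List.forall_mem_cons.2 ⟨OkD.of_ok o2_3, (List.forall_mem_cons.2 ⟨OkD.of_ok o2_4, (List.forall_mem_cons.2 ⟨OkD.of_ok o2_5, (List.forall_mem_cons.2 ⟨OkD.of_ok o2_6, (List.forall_mem_cons.2 ⟨OkD.of_ok o2_7, (List.forall_mem_cons.2 ⟨OkD.of_ok o2_8, (List.forall_mem_cons.2 ⟨OkD.of_ok o2_9, (fun _ h => nomatch h)⟩)⟩)⟩)⟩)⟩)⟩)⟩)⟩)⟩)⟩))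

end Crest.Agent.R163.b4G
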