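import Crest.Agent.R163.Q3.D.b4G.P4_0

set_option autoImplicit false
set_option maxRecDepth 100000
set_option linter.all false

namespace Crest.Agent.R163.b4G

theorem o4_9 : Ok par f9 Box3.unit C4 :=
  p4_9_0
theorem o4_8 : Ok par f8 Box3.unit C4 :=
  p4_8_0
theorem o4_7 : Ok par f7 Box3.unit C4 :=
  p4_7_0
theorem o4_6 : Ok par f6 Box3.unit C4 :=
  p4_6_0
theorem o4_5 : Ok par f5 Box3.unit C4 :=
  (Ok.part 286955753087766284027045595952914675987668622282083096768050785837291072598245951936004354 p4_5_6 (Ok.split 1 (Ok.part 257922777799704108716606456972689660101419949915657289912909951 p4_5_4 (Ok.split 1 (Ok.part 120235003055203079135803999488 p4_5_2 (Ok.split 0 p4_5_0 p4_5_1)) p4_5_3)) p4_5_5))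
theorem o4_4 : Ok par f4 Box3.unit C4 :=
  p4_4_0
theorem o4_3 : Ok par f3 Box3.unit C4 :=
  p4_3_0
theorem o4_2 : Ok par f2 Box3.unit C4 :=
  p4_2_0
theorem o4_1 : Ok par f1 Box3.unit C4 :=
  p4_1_0
theorem o4_0 : Ok par f0 Box3.unit C4 :=
  p4_0_0

theorem pt4 : PtAll par C4 :=
  PtAll.of_okD hw (OkD.cover [f0.dom,f1.dom,f2.dom,f3.dom,f4.dom,f5.dom,f6.dom,f7.dom,f8.dom,f9.dom]
    (.split 0 (.split 0 (.split 1 (.leaf 0) (.leaf 1)) (.split 1 (.leaf 2) (.leaf 3))) (.split 1 (.split 0 (.leaf 4) (.leaf 5)) (.split 0 (.split 1 (.leaf 6) (.leaf 7)) (.split 1 (.leaf 8) (.leaf 9)))))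
    (by decide +kernel)
    (List.forall_mem_cons.2 ⟨OkD.of_ok o4_0, (List.forall_mem_cons.2 ⟨OkD.of_ok o4_1, (List.forall_mem_cons.2 ⟨OkD.of_ok o4_2, (List.forall_mem_cons.2 ⟨OkD.of_ok o4_3, (List.forall_mem_cons.2 ⟨OkD.of_ok o4_4, (List.forall_mem_cons.2 ⟨OkD.of_ok o4_5, (List.forall_mem_cons.2 ⟨OkD.of_ok o4_6, (List.forall_mem_cons.2 ⟨OkD.of_ok o4_7, (List.forall_mem_cons.2 ⟨OkD.of_ok o4_8, (List.forall_mem_cons.2 ⟨OkD.of_ok o4_9, (fun _ h => nomatch h)⟩)⟩)⟩)⟩)⟩)⟩)⟩)⟩)⟩)⟩))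

end Crest.Agent.R163.b4G
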