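import Crest.Agent.R163.Q3.D.b4G.P5_0

set_option autoImplicit false
set_option maxRecDepth 100000
set_option linter.all false

namespace Crest.Agent.R163.b4G

theorem o5_9 : Ok par f9 Box3.unit C5 :=
  p5_9_0
theorem o5_8 : Ok par f8 Box3.unit C5 :=
  p5_8_0
theorem o5_7 : Ok par f7 Box3.unit C5 :=
  p5_7_0
theorem o5_6 : Ok par f6 Box3.unit C5 :=
  p5_6_0
theorem o5_5 : Ok par f5 Box3.unit C5 :=
  (Ok.part 505096761390451615733561786281762374450571957134773553662948839559305302433747024479273 p5_5_7 (Ok.split 1 (Ok.part 6467597009311642006512450609340231049878577630137700485934188343672815 p5_5_4 (Ok.split 1 (Ok.part 20448697502689899165488648208 p5_5_2 (Ok.split 0 p5_5_0 p5_5_1)) p5_5_3)) (Ok.part 132899269579944031975262859671959653533712775581201964345915053920584340 p5_5_5 p5_5_6)))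
theorem o5_4 : Ok par f4 Box3.unit C5 :=
  p5_4_0
theorem o5_3 : Ok par f3 Box3.unit C5 :=
  p5_3_0
theorem o5_2 : Ok par f2 Box3.unit C5 :=
  p5_2_0
theorem o5_1 : Ok par f1 Box3.unit C5 :=
  p5_1_0
theorem o5_0 : Ok par f0 Box3.unit C5 :=
  p5_0_0

theorem pt5 : PtAll par C5 :=
  PtAll.of_okD hw (OkD.cover [f0.dom,f1.dom,f2.dom,f3.dom,f4.dom,f5.dom,f6.dom,f7.dom,f8.dom,f9.dom]
    (.split 0 (.split 0 (.split 1 (.leaf 0) (.leaf 1)) (.split 1 (.leaf 2) (.leaf 3))) (.split 1 (.split 0 (.leaf 4) (.leaf 5)) (.split 0 (.split 1 (.leaf 6) (.leaf 7)) (.split 1 (.leaf 8) (.leaf 9)))))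
    (by decide +kernel)
    (List.forall_mem_cons.2 ⟨OkD.of_ok o5_0, (List.forall_mem_cons.2 ⟨OkD.of_ok o5_1, (List.forall_mem_cons.2 ⟨OkD.of_ok o5_2, (List.forall_mem_cons.2 ⟨OkD.of_ok o5_3, (List.forall_mem_cons.2 ⟨OkD.of_ok o5_4, (List.forall_mem_cons.2 ⟨OkD.of_ok o5_5, (List.forall_mem_cons.2 ⟨OkD.of_ok o5_6, (List.forall_mem_cons.2 ⟨OkD.of_ok o5_7, (List.forall_mem_cons.2 ⟨OkD.of_ok o5_8, (List.forall_mem_cons.2 ⟨OkD.of_ok o5_9, (fun _ h => nomatch h)⟩)⟩)⟩)⟩)⟩)⟩)⟩)⟩)⟩)⟩))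

end Crest.Agent.R163.b4G
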