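import Crest.Agent.R163.Q3.D.b4G.P6_0

set_option autoImplicit false
set_option maxRecDepth 100000
set_option linter.all false

namespace Crest.Agent.R163.b4G

theorem o6_9 : Ok par f9 Box3.unit C6 :=
  p6_9_0
theorem o6_8 : Ok par f8 Box3.unit C6 :=
  p6_8_0
theorem o6_7 : Ok par f7 Box3.unit C6 :=
  p6_7_0
theorem o6_6 : Ok par f6 Box3.unit C6 :=
  p6_6_0
theorem o6_5 : Ok par f5 Box3.unit C6 :=
  (Ok.part 11951299039823021461978031158649314224578370718096029557681681689062969296649637917380612 p6_5_3 (Ok.split 1 (Ok.part 5789736876826075462284886977220661778483027770211307186669163912465668372699 p6_5_0 p6_5_1) p6_5_2))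
theorem o6_4 : Ok par f4 Box3.unit C6 :=
  (Ok.part 11991230273251760391089694162715329028915097287653550751139245323118919278614436330263151 p6_4_0 p6_4_1)
theorem o6_3 : Ok par f3 Box3.unit C6 :=
  p6_3_0
theorem o6_2 : Ok par f2 Box3.unit C6 :=
  p6_2_0
theorem o6_1 : Ok par f1 Box3.unit C6 :=
  p6_1_0
theorem o6_0 : Ok par f0 Box3.unit C6 :=
  p6_0_0

theorem pt6 : PtAll par C6 :=
  PtAll.of_okD hw (OkD.cover [f0.dom,f1.dom,f2.dom,f3.dom,f4.dom,f5.dom,f6.dom,f7.dom,f8.dom,f9.dom]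
    (.split 0 (.split 0 (.split 1 (.leaf 0) (.leaf 1)) (.split 1 (.leaf 2) (.leaf 3))) (.split 1 (.split 0 (.leaf 4) (.leaf 5)) (.split 0 (.split 1 (.leaf 6) (.leaf 7)) (.split 1 (.leaf 8) (.leaf 9)))))
    (by decide +kernel)
    (List.forall_mem_cons.2 ⟨OkD.of_ok o6_0, (List.forall_mem_cons.2 ⟨OkD.of_ok o6_1, (List.forall_mem_cons.2 ⟨OkD.of_ok o6_2, (List.forall_mem_cons.2 ⟨OkD.of_ok o6_3, (List.forall_mem_cons.2 ⟨OkD.of_ok o6_4, (List.forall_mem_cons.2 ⟨OkD.of_ok o6_5, (List.forall_mem_cons.2 ⟨OkD.of_ok o6_6, (List.forall_mem_cons.2 ⟨OkD.of_ok o6_7, (List.forall_mem_cons.2 ⟨OkD.of_ok o6_8, (List.forall_mem_cons.2 ⟨OkD.of_ok o6_9, (fun _ h => nomatch h)⟩)⟩)⟩)⟩)⟩)⟩)⟩)⟩)⟩)⟩))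

end Crest.Agent.R163.b4G
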