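import Crest.Agent.R163.Q3.D.b4G.P7_0

set_option autoImplicit false
set_option maxRecDepth 100000
set_option linter.all false

namespace Crest.Agent.R163.b4G

theorem o7_9 : Ok par f9 Box3.unit C7 :=
  p7_9_0
theorem o7_8 : Ok par f8 Box3.unit C7 :=
  p7_8_0
theorem o7_7 : Ok par f7 Box3.unit C7 :=
  p7_7_0
theorem o7_6 : Ok par f6 Box3.unit C7 :=
  p7_6_0
theorem o7_5 : Ok par f5 Box3.unit C7 :=
  (Ok.part 254633443089970178536413310932140050093782724582459598058998093250931384089411900233777408 p7_5_5 (Ok.split 1 (Ok.part 28947639828563782133050672395114095013209861301813323602958129060621326221311 p7_5_0 p7_5_1) (Ok.part 32686736479099938974549198967912194798198473817280572505940182263759258998 p7_5_4 (Ok.split 1 p7_5_2 p7_5_3))))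
theorem o7_4 : Ok par f4 Box3.unit C7 :=
  (Ok.part 288926076554174180671257144000449793850905704290908336310874159372260140294944705216494590 p7_4_2 (Ok.split 1 p7_4_0 p7_4_1))
theorem o7_3 : Ok par f3 Box3.unit C7 :=
  p7_3_0
theorem o7_2 : Ok par f2 Box3.unit C7 :=
  p7_2_0
theorem o7_1 : Ok par f1 Box3.unit C7 :=
  p7_1_0
theorem o7_0 : Ok par f0 Box3.unit C7 :=
  p7_0_0

theorem pt7 : PtAll par C7 :=
  PtAll.of_okD hw (OkD.cover [f0.dom,f1.dom,f2.dom,f3.dom,f4.dom,f5.dom,f6.dom,f7.dom,f8.dom,f9.dom]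
    (.split 0 (.split 0 (.split 1 (.leaf 0) (.leaf 1)) (.split 1 (.leaf 2) (.leaf 3))) (.split 1 (.split 0 (.leaf 4) (.leaf 5)) (.split 0 (.split 1 (.leaf 6) (.leaf 7)) (.split 1 (.leaf 8) (.leaf 9)))))
    (by decide +kernel)
    (List.forall_mem_cons.2 ⟨OkD.of_ok o7_0, (List.forall_mem_cons.2 ⟨OkD.of_ok o7_1, (List.forall_mem_cons.2 ⟨OkD.of_ok o7_2, (List.forall_mem_cons.2 ⟨OkD.of_ok o7_3, (List.forall_mem_cons.2 ⟨OkD.of_ok o7_4, (List.forall_mem_cons.2 ⟨OkD.of_ok o7_5, (List.forall_mem_cons.2 ⟨OkD.of_ok o7_6, (List.forall_mem_cons.2 ⟨OkD.of_ok o7_7, (List.forall_mem_cons.2 ⟨OkD.of_ok o7_8, (List.forall_mem_cons.2 ⟨OkD.of_ok o7_9, (fun _ h => nomatch h)⟩)⟩)⟩)⟩)⟩)⟩)⟩)⟩)⟩)⟩))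

end Crest.Agent.R163.b4G
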