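import Crest.Agent.R163.Q3.D.b4G.P9_0

set_option autoImplicit false
set_option maxRecDepth 100000
set_option linter.all false

namespace Crest.Agent.R163.b4G

theorem o9_9 : Ok par f9 Box3.unit C9 :=
  p9_9_0
theorem o9_8 : Ok par f8 Box3.unit C9 :=
  p9_8_0
theorem o9_7 : Ok par f7 Box3.unit C9 :=
  p9_7_0
theorem o9_6 : Ok par f6 Box3.unit C9 :=
  p9_6_0
theorem o9_5 : Ok par f5 Box3.unit C9 :=
  (Ok.part 746237648202287652571639237052570499664656251484201128399171665182434009127330022167296 p9_5_3 (Ok.split 1 p9_5_2 (Ok.part 1007658346550813012458186420039040249314383517509232862832200548970695250 p9_5_0 p9_5_1)))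
theorem o9_4 : Ok par f4 Box3.unit C9 :=
  (Ok.part 753723753539649362029319099686924820176812331137962501920541907102936349654203766800382 p9_4_2 (Ok.split 1 p9_4_0 p9_4_1))
theorem o9_3 : Ok par f3 Box3.unit C9 :=
  p9_3_0
theorem o9_2 : Ok par f2 Box3.unit C9 :=
  p9_2_0
theorem o9_1 : Ok par f1 Box3.unit C9 :=
  p9_1_0
theorem o9_0 : Ok par f0 Box3.unit C9 :=
  p9_0_0

theorem pt9 : PtAll par C9 :=
  PtAll.of_okD hw (OkD.cover [f0.dom,f1.dom,f2.dom,f3.dom,f4.dom,f5.dom,f6.dom,f7.dom,f8.dom,f9.dom]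
    (.split 0 (.split 0 (.split 1 (.leaf 0) (.leaf 1)) (.split 1 (.leaf 2) (.leaf 3))) (.split 1 (.split 0 (.leaf 4) (.leaf 5)) (.split 0 (.split 1 (.leaf 6) (.leaf 7)) (.split 1 (.leaf 8) (.leaf 9)))))
    (by decide +kernel)
    (List.forall_mem_cons.2 ⟨OkD.of_ok o9_0, (List.forall_mem_cons.2 ⟨OkD.of_ok o9_1, (List.forall_mem_cons.2 ⟨OkD.of_ok o9_2, (List.forall_mem_cons.2 ⟨OkD.of_ok o9_3, (List.forall_mem_cons.2 ⟨OkD.of_ok o9_4, (List.forall_mem_cons.2 ⟨OkD.of_ok o9_5, (List.forall_mem_cons.2 ⟨OkD.of_ok o9_6, (List.forall_mem_cons.2 ⟨OkD.of_ok o9_7, (List.forall_mem_cons.2 ⟨OkD.of_ok o9_8, (List.forall_mem_cons.2 ⟨OkD.of_ok o9_9, (fun _ h => nomatch h)⟩)⟩)⟩)⟩)⟩)⟩)⟩)⟩)⟩)⟩))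

end Crest.Agent.R163.b4G
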