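import Crest.Agent.R163.Q3.PtC

set_option autoImplicit false
set_option maxRecDepth 100000
set_option linter.all false
set_option Elab.async false

namespace Crest.Agent.R163.b4G

def par : Par := ⟨8,[(4,4,0),(7,1,0),(6,2,0),(6,1,1),(5,2,1),(4,3,1),(4,2,2),(3,3,2)],8192,603979776,2,4,4,⟨1,1,2⟩,false,1,4⟩

theorem hw : par.wf = true := by decide +kernel

end Crest.Agent.R163.b4G
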