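import Crest.Agent.R163.Q3.D.b4G.S11

set_option autoImplicit false
set_option maxRecDepth 100000
set_option linter.all false

namespace Crest.Agent.R163.b4G

theorem c321_1 : stepsOK par ⟨359,11,6,1,7⟩ b321_1 s321_1 a321_1 = true := by decide +kernel
theorem c322_0 : stepsOK par ⟨359,11,6,1,7⟩ b322_0 s322_0 a322_0 = true := by decide +kernel
theorem c323_0 : stepsOK par ⟨354,11,6,1,7⟩ b323_0 s323_0 a323_0 = true := by decide +kernel
theorem c324_0 : stepsOK par ⟨357,11,6,1,7⟩ b324_0 s324_0 a324_0 = true := by decide +kernel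
theorem c325_0 : stepsOK par ⟨360,11,6,1,7⟩ b325_0 s325_0 a325_0 = true := by decide +kernel
theorem c326_0 : stepsOK par ⟨359,11,6,1,7⟩ b326_0 s326_0 a326_0 = true := by decide +kernel
theorem c327_0 : stepsOK par ⟨355,11,6,1,7⟩ b327_0 s327_0 a327_0 = true := by decide +kernel
theorem c328_0 : stepsOK par ⟨359,11,6,1,7⟩ b328_0 s328_0 a328_0 = true := by decide +kernel
theorem c329_0 : stepsOK par ⟨359,11,6,1,7⟩ b329_0 s329_0 a329_0 = true := by decide +kernel
theorem c330_0 : stepsOK par ⟨354,11,6,1,7⟩ b330_0 s330_0 a330_0 = true := by decide +kernel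
theorem c331_0 : stepsOK par ⟨352,11,6,1,7⟩ b331_0 s331_0 a331_0 = true := by decide +kernel
theorem c332_0 : stepsOK par ⟨359,11,6,1,7⟩ b332_0 s332_0 a332_0 = true := by decide +kernel
theorem c333_0 : stepsOK par ⟨357,11,6,1,7⟩ b333_0 s333_0 a333_0 = true := by decide +kernel
theorem c334_0 : stepsOK par ⟨359,11,6,1,7⟩ b334_0 s334_0 a334_0 = true := by decide +kernel
theorem c335_0 : stepsOK par ⟨359,11,6,1,7⟩ b335_0 s335_0 a335_0 = true := by decide +kernel
theorem c336_0 : stepsOK par ⟨358,11,6,1,7⟩ b336_0 s336_0 a336_0 = true := by decide +kernel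
theorem c336_1 : stepsOK par ⟨359,11,6,1,7⟩ b336_1 s336_1 a336_1 = true := by decide +kernel
theorem c337_0 : stepsOK par ⟨353,11,6,1,7⟩ b337_0 s337_0 a337_0 = true := by decide +kernel
theorem c338_0 : stepsOK par ⟨353,11,6,1,7⟩ b338_0 s338_0 a338_0 = true := by decide +kernel
theorem c339_0 : stepsOK par ⟨356,11,6,1,7⟩ b339_0 s339_0 a339_0 = true := by decide +kernel
theorem c340_0 : stepsOK par ⟨357,11,6,1,7⟩ b340_0 s340_0 a340_0 = true := by decide +kernel
theorem c341_0 : stepsOK par ⟨359,11,6,1,7⟩ b341_0 s341_0 a341_0 = true := by decide +kernel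
theorem c342_0 : stepsOK par ⟨358,11,6,1,7⟩ b342_0 s342_0 a342_0 = true := by decide +kernel
theorem c343_0 : stepsOK par ⟨359,11,6,1,7⟩ b343_0 s343_0 a343_0 = true := by decide +kernel
theorem c344_0 : stepsOK par ⟨359,11,6,1,7⟩ b344_0 s344_0 a344_0 = true := by decide +kernel
theorem c345_0 : stepsOK par ⟨354,11,6,1,7⟩ b345_0 s345_0 a345_0 = true := by decide +kernel
theorem c346_0 : stepsOK par ⟨359,11,6,1,7⟩ b346_0 s346_0 a346_0 = true := by decide +kernel
theorem c346_1 : stepsOK par ⟨359,11,6,1,7⟩ b346_1 s346_1 a346_1 = true := by decide +kernel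
theorem c347_0 : stepsOK par ⟨356,11,6,1,7⟩ b347_0 s347_0 a347_0 = true := by decide +kernel
theorem c348_0 : stepsOK par ⟨350,11,6,1,7⟩ b348_0 s348_0 a348_0 = true := by decide +kernel
theorem c349_0 : stepsOK par ⟨358,11,6,1,7⟩ b349_0 s349_0 a349_0 = true := by decide +kernel

end Crest.Agent.R163.b4G
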