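import Crest.Agent.R163.Q3.D.b4G.S12

set_option autoImplicit false
set_option maxRecDepth 100000
set_option linter.all false

namespace Crest.Agent.R163.b4G

theorem c350_0 : stepsOK par ⟨359,11,6,1,7⟩ b350_0 s350_0 a350_0 = true := by decide +kernel
theorem c351_0 : stepsOK par ⟨359,11,6,1,7⟩ b351_0 s351_0 a351_0 = true := by decide +kernel
theorem c352_0 : stepsOK par ⟨360,11,6,1,7⟩ b352_0 s352_0 a352_0 = true := by decide +kernel
theorem c353_0 : stepsOK par ⟨358,11,6,1,7⟩ b353_0 s353_0 a353_0 = true := by decide +kernel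
theorem c354_0 : stepsOK par ⟨359,11,6,1,7⟩ b354_0 s354_0 a354_0 = true := by decide +kernel
theorem c355_0 : stepsOK par ⟨359,11,6,1,7⟩ b355_0 s355_0 a355_0 = true := by decide +kernel
theorem c356_0 : stepsOK par ⟨351,11,6,1,7⟩ b356_0 s356_0 a356_0 = true := by decide +kernel
theorem c357_0 : stepsOK par ⟨354,11,6,1,7⟩ b357_0 s357_0 a357_0 = true := by decide +kernel
theorem c358_0 : stepsOK par ⟨353,11,6,1,7⟩ b358_0 s358_0 a358_0 = true := by decide +kernel
theorem c359_0 : stepsOK par ⟨351,11,6,1,7⟩ b359_0 s359_0 a359_0 = true := by decide +kernel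
theorem c360_0 : stepsOK par ⟨354,11,6,1,7⟩ b360_0 s360_0 a360_0 = true := by decide +kernel
theorem c361_0 : stepsOK par ⟨359,11,6,1,7⟩ b361_0 s361_0 a361_0 = true := by decide +kernel
theorem c362_0 : stepsOK par ⟨355,11,6,1,7⟩ b362_0 s362_0 a362_0 = true := by decide +kernel
theorem c363_0 : stepsOK par ⟨354,11,6,1,7⟩ b363_0 s363_0 a363_0 = true := by decide +kernel
theorem c364_0 : stepsOK par ⟨359,11,6,1,7⟩ b364_0 s364_0 a364_0 = true := by decide +kernel
theorem c365_0 : stepsOK par ⟨359,11,6,1,7⟩ b365_0 s365_0 a365_0 = true := by decide +kernel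
theorem c366_0 : stepsOK par ⟨355,11,6,1,7⟩ b366_0 s366_0 a366_0 = true := by decide +kernel
theorem c367_0 : stepsOK par ⟨359,11,6,1,7⟩ b367_0 s367_0 a367_0 = true := by decide +kernel
theorem c368_0 : stepsOK par ⟨359,11,6,1,7⟩ b368_0 s368_0 a368_0 = true := by decide +kernel
theorem c369_0 : stepsOK par ⟨355,11,6,1,7⟩ b369_0 s369_0 a369_0 = true := by decide +kernel
theorem c370_0 : stepsOK par ⟨359,11,6,1,7⟩ b370_0 s370_0 a370_0 = true := by decide +kernel
theorem c371_0 : stepsOK par ⟨358,11,6,1,7⟩ b371_0 s371_0 a371_0 = true := by decide +kernel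
theorem c372_0 : stepsOK par ⟨359,11,6,1,7⟩ b372_0 s372_0 a372_0 = true := by decide +kernel
theorem c373_0 : stepsOK par ⟨359,11,6,1,7⟩ b373_0 s373_0 a373_0 = true := by decide +kernel
theorem c374_0 : stepsOK par ⟨356,11,6,1,7⟩ b374_0 s374_0 a374_0 = true := by decide +kernel
theorem c375_0 : stepsOK par ⟨357,11,6,1,7⟩ b375_0 s375_0 a375_0 = true := by decide +kernel
theorem c376_0 : stepsOK par ⟨359,11,6,1,7⟩ b376_0 s376_0 a376_0 = true := by decide +kernel
theorem c377_0 : stepsOK par ⟨359,11,6,1,7⟩ b377_0 s377_0 a377_0 = true := by decide +kernel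
theorem c378_0 : stepsOK par ⟨359,11,6,1,7⟩ b378_0 s378_0 a378_0 = true := by decide +kernel

end Crest.Agent.R163.b4G
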