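import Crest.Agent.R163.Q3.D.b4G.S13

set_option autoImplicit false
set_option maxRecDepth 100000
set_option linter.all false

namespace Crest.Agent.R163.b4G

theorem c379_0 : stepsOK par ⟨359,11,6,1,7⟩ b379_0 s379_0 a379_0 = true := by decide +kernel
theorem c380_0 : stepsOK par ⟨354,11,6,1,7⟩ b380_0 s380_0 a380_0 = true := by decide +kernel
theorem c381_0 : stepsOK par ⟨355,11,6,1,7⟩ b381_0 s381_0 a381_0 = true := by decide +kernel
theorem c382_0 : stepsOK par ⟨359,11,6,1,7⟩ b382_0 s382_0 a382_0 = true := by decide +kernel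
theorem c383_0 : stepsOK par ⟨357,11,6,1,7⟩ b383_0 s383_0 a383_0 = true := by decide +kernel
theorem c384_0 : stepsOK par ⟨356,11,6,1,7⟩ b384_0 s384_0 a384_0 = true := by decide +kernel
theorem c385_0 : stepsOK par ⟨359,11,6,1,7⟩ b385_0 s385_0 a385_0 = true := by decide +kernel
theorem c386_0 : stepsOK par ⟨359,11,6,1,7⟩ b386_0 s386_0 a386_0 = true := by decide +kernel
theorem c387_0 : stepsOK par ⟨359,11,6,1,7⟩ b387_0 s387_0 a387_0 = true := by decide +kernel
theorem c388_0 : stepsOK par ⟨355,11,6,1,7⟩ b388_0 s388_0 a388_0 = true := by decide +kernel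
theorem c389_0 : stepsOK par ⟨357,11,6,1,7⟩ b389_0 s389_0 a389_0 = true := by decide +kernel
theorem c390_0 : stepsOK par ⟨356,11,6,1,7⟩ b390_0 s390_0 a390_0 = true := by decide +kernel
theorem c391_0 : stepsOK par ⟨359,11,6,1,7⟩ b391_0 s391_0 a391_0 = true := by decide +kernel
theorem c392_0 : stepsOK par ⟨359,11,6,1,7⟩ b392_0 s392_0 a392_0 = true := by decide +kernel
theorem c393_0 : stepsOK par ⟨357,11,6,1,7⟩ b393_0 s393_0 a393_0 = true := by decide +kernel
theorem c394_0 : stepsOK par ⟨359,11,6,1,7⟩ b394_0 s394_0 a394_0 = true := by decide +kernel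
theorem c395_0 : stepsOK par ⟨359,11,6,1,7⟩ b395_0 s395_0 a395_0 = true := by decide +kernel
theorem c396_0 : stepsOK par ⟨356,11,6,1,7⟩ b396_0 s396_0 a396_0 = true := by decide +kernel
theorem c397_0 : stepsOK par ⟨359,11,6,1,7⟩ b397_0 s397_0 a397_0 = true := by decide +kernel
theorem c398_0 : stepsOK par ⟨357,11,6,1,7⟩ b398_0 s398_0 a398_0 = true := by decide +kernel
theorem c399_0 : stepsOK par ⟨359,11,6,1,7⟩ b399_0 s399_0 a399_0 = true := by decide +kernel
theorem c400_0 : stepsOK par ⟨359,11,6,1,7⟩ b400_0 s400_0 a400_0 = true := by decide +kernel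
theorem c401_0 : stepsOK par ⟨350,11,6,1,7⟩ b401_0 s401_0 a401_0 = true := by decide +kernel
theorem c402_0 : stepsOK par ⟨353,11,6,1,7⟩ b402_0 s402_0 a402_0 = true := by decide +kernel
theorem c403_0 : stepsOK par ⟨351,11,6,1,7⟩ b403_0 s403_0 a403_0 = true := by decide +kernel
theorem c404_0 : stepsOK par ⟨355,11,6,1,7⟩ b404_0 s404_0 a404_0 = true := by decide +kernel
theorem c405_0 : stepsOK par ⟨355,11,6,1,7⟩ b405_0 s405_0 a405_0 = true := by decide +kernel
theorem c406_0 : stepsOK par ⟨359,11,6,1,7⟩ b406_0 s406_0 a406_0 = true := by decide +kernel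
theorem c407_0 : stepsOK par ⟨357,11,6,1,7⟩ b407_0 s407_0 a407_0 = true := by decide +kernel
theorem c408_0 : stepsOK par ⟨359,11,6,1,7⟩ b408_0 s408_0 a408_0 = true := by decide +kernel

end Crest.Agent.R163.b4G
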