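import Crest.Agent.R163.Q3.D.b4G.S14

set_option autoImplicit false
set_option maxRecDepth 100000
set_option linter.all false

namespace Crest.Agent.R163.b4G

theorem c409_0 : stepsOK par ⟨360,11,6,1,7⟩ b409_0 s409_0 a409_0 = true := by decide +kernel
theorem c410_0 : stepsOK par ⟨355,11,6,1,7⟩ b410_0 s410_0 a410_0 = true := by decide +kernel
theorem c411_0 : stepsOK par ⟨357,11,6,1,7⟩ b411_0 s411_0 a411_0 = true := by decide +kernel
theorem c412_0 : stepsOK par ⟨359,11,6,1,7⟩ b412_0 s412_0 a412_0 = true := by decide +kernel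
theorem c413_0 : stepsOK par ⟨359,11,6,1,7⟩ b413_0 s413_0 a413_0 = true := by decide +kernel
theorem c414_0 : stepsOK par ⟨356,11,6,1,7⟩ b414_0 s414_0 a414_0 = true := by decide +kernel
theorem c415_0 : stepsOK par ⟨359,11,6,1,7⟩ b415_0 s415_0 a415_0 = true := by decide +kernel
theorem c416_0 : stepsOK par ⟨357,11,6,1,7⟩ b416_0 s416_0 a416_0 = true := by decide +kernel
theorem c417_0 : stepsOK par ⟨359,11,6,1,7⟩ b417_0 s417_0 a417_0 = true := by decide +kernel
theorem c418_0 : stepsOK par ⟨358,11,6,1,7⟩ b418_0 s418_0 a418_0 = true := by decide +kernel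
theorem c419_0 : stepsOK par ⟨359,11,6,1,7⟩ b419_0 s419_0 a419_0 = true := by decide +kernel
theorem c420_0 : stepsOK par ⟨359,11,6,1,7⟩ b420_0 s420_0 a420_0 = true := by decide +kernel
theorem c421_0 : stepsOK par ⟨355,11,6,1,7⟩ b421_0 s421_0 a421_0 = true := by decide +kernel
theorem c422_0 : stepsOK par ⟨359,11,6,1,7⟩ b422_0 s422_0 a422_0 = true := by decide +kernel
theorem c423_0 : stepsOK par ⟨353,11,6,1,7⟩ b423_0 s423_0 a423_0 = true := by decide +kernel
theorem c424_0 : stepsOK par ⟨357,11,6,1,7⟩ b424_0 s424_0 a424_0 = true := by decide +kernel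
theorem c425_0 : stepsOK par ⟨359,11,6,1,7⟩ b425_0 s425_0 a425_0 = true := by decide +kernel
theorem c426_0 : stepsOK par ⟨359,11,6,1,7⟩ b426_0 s426_0 a426_0 = true := by decide +kernel
theorem c427_0 : stepsOK par ⟨357,11,6,1,7⟩ b427_0 s427_0 a427_0 = true := by decide +kernel
theorem c428_0 : stepsOK par ⟨359,11,6,1,7⟩ b428_0 s428_0 a428_0 = true := by decide +kernel
theorem c429_0 : stepsOK par ⟨358,11,6,1,7⟩ b429_0 s429_0 a429_0 = true := by decide +kernel
theorem c430_0 : stepsOK par ⟨359,11,6,1,7⟩ b430_0 s430_0 a430_0 = true := by decide +kernel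
theorem c431_0 : stepsOK par ⟨359,11,6,1,7⟩ b431_0 s431_0 a431_0 = true := by decide +kernel
theorem c432_0 : stepsOK par ⟨356,11,6,1,7⟩ b432_0 s432_0 a432_0 = true := by decide +kernel
theorem c432_1 : stepsOK par ⟨359,11,6,1,7⟩ b432_1 s432_1 a432_1 = true := by decide +kernel
theorem c433_0 : stepsOK par ⟨354,11,6,1,7⟩ b433_0 s433_0 a433_0 = true := by decide +kernel
theorem c434_0 : stepsOK par ⟨355,11,6,1,7⟩ b434_0 s434_0 a434_0 = true := by decide +kernel
theorem c435_0 : stepsOK par ⟨358,11,6,1,7⟩ b435_0 s435_0 a435_0 = true := by decide +kernel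
theorem c436_0 : stepsOK par ⟨357,11,6,1,7⟩ b436_0 s436_0 a436_0 = true := by decide +kernel

end Crest.Agent.R163.b4G
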