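import Crest.Agent.R163.Q3.D.b4G.S15

set_option autoImplicit false
set_option maxRecDepth 100000
set_option linter.all false

namespace Crest.Agent.R163.b4G

theorem c437_0 : stepsOK par ⟨359,11,6,1,7⟩ b437_0 s437_0 a437_0 = true := by decide +kernel
theorem c438_0 : stepsOK par ⟨358,11,6,1,7⟩ b438_0 s438_0 a438_0 = true := by decide +kernel
theorem c439_0 : stepsOK par ⟨355,11,6,1,7⟩ b439_0 s439_0 a439_0 = true := by decide +kernel
theorem c440_0 : stepsOK par ⟨356,11,6,1,7⟩ b440_0 s440_0 a440_0 = true := by decide +kernel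
theorem c441_0 : stepsOK par ⟨359,11,6,1,7⟩ b441_0 s441_0 a441_0 = true := by decide +kernel
theorem c442_0 : stepsOK par ⟨359,11,6,1,7⟩ b442_0 s442_0 a442_0 = true := by decide +kernel
theorem c443_0 : stepsOK par ⟨356,11,6,1,7⟩ b443_0 s443_0 a443_0 = true := by decide +kernel
theorem c444_0 : stepsOK par ⟨359,11,6,1,7⟩ b444_0 s444_0 a444_0 = true := by decide +kernel
theorem c445_0 : stepsOK par ⟨359,11,6,1,7⟩ b445_0 s445_0 a445_0 = true := by decide +kernel
theorem c446_0 : stepsOK par ⟨353,11,6,1,7⟩ b446_0 s446_0 a446_0 = true := by decide +kernel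
theorem c447_0 : stepsOK par ⟨353,11,6,1,7⟩ b447_0 s447_0 a447_0 = true := by decide +kernel
theorem c448_0 : stepsOK par ⟨353,11,6,1,7⟩ b448_0 s448_0 a448_0 = true := by decide +kernel
theorem c449_0 : stepsOK par ⟨353,11,6,1,7⟩ b449_0 s449_0 a449_0 = true := by decide +kernel
theorem c450_0 : stepsOK par ⟨354,11,6,1,7⟩ b450_0 s450_0 a450_0 = true := by decide +kernel
theorem c451_0 : stepsOK par ⟨356,11,6,1,7⟩ b451_0 s451_0 a451_0 = true := by decide +kernel
theorem c452_0 : stepsOK par ⟨358,11,6,1,7⟩ b452_0 s452_0 a452_0 = true := by decide +kernel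
theorem c453_0 : stepsOK par ⟨359,11,6,1,7⟩ b453_0 s453_0 a453_0 = true := by decide +kernel
theorem c454_0 : stepsOK par ⟨357,11,6,1,7⟩ b454_0 s454_0 a454_0 = true := by decide +kernel
theorem c454_1 : stepsOK par ⟨359,11,6,1,7⟩ b454_1 s454_1 a454_1 = true := by decide +kernel
theorem c455_0 : stepsOK par ⟨356,11,6,1,7⟩ b455_0 s455_0 a455_0 = true := by decide +kernel
theorem c456_0 : stepsOK par ⟨359,11,6,1,7⟩ b456_0 s456_0 a456_0 = true := by decide +kernel
theorem c457_0 : stepsOK par ⟨359,11,6,1,7⟩ b457_0 s457_0 a457_0 = true := by decide +kernel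
theorem c458_0 : stepsOK par ⟨354,11,6,1,7⟩ b458_0 s458_0 a458_0 = true := by decide +kernel
theorem c459_0 : stepsOK par ⟨359,11,6,1,7⟩ b459_0 s459_0 a459_0 = true := by decide +kernel
theorem c460_0 : stepsOK par ⟨359,11,6,1,7⟩ b460_0 s460_0 a460_0 = true := by decide +kernel
theorem c461_0 : stepsOK par ⟨354,11,6,1,7⟩ b461_0 s461_0 a461_0 = true := by decide +kernel

end Crest.Agent.R163.b4G
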