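import Crest.Agent.R163.Q3.D.b4G.S16

set_option autoImplicit false
set_option maxRecDepth 100000
set_option linter.all false

namespace Crest.Agent.R163.b4G

theorem c462_0 : stepsOK par ⟨359,11,6,1,7⟩ b462_0 s462_0 a462_0 = true := by decide +kernel
theorem c463_0 : stepsOK par ⟨358,11,6,1,7⟩ b463_0 s463_0 a463_0 = true := by decide +kernel
theorem c464_0 : stepsOK par ⟨359,11,6,1,7⟩ b464_0 s464_0 a464_0 = true := by decide +kernel

end Crest.Agent.R163.b4G
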