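import Crest.Agent.R163.Q3.D.b4G.S2

set_option autoImplicit false
set_option maxRecDepth 100000
set_option linter.all false

namespace Crest.Agent.R163.b4G

theorem c63_0 : stepsOK par ⟨358,11,6,1,7⟩ b63_0 s63_0 a63_0 = true := by decide +kernel
theorem c64_0 : stepsOK par ⟨349,11,6,1,7⟩ b64_0 s64_0 a64_0 = true := by decide +kernel
theorem c65_0 : stepsOK par ⟨349,11,6,1,7⟩ b65_0 s65_0 a65_0 = true := by decide +kernel
theorem c66_0 : stepsOK par ⟨351,11,6,1,7⟩ b66_0 s66_0 a66_0 = true := by decide +kernel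
theorem c67_0 : stepsOK par ⟨353,11,6,1,7⟩ b67_0 s67_0 a67_0 = true := by decide +kernel
theorem c68_0 : stepsOK par ⟨358,11,6,1,7⟩ b68_0 s68_0 a68_0 = true := by decide +kernel
theorem c69_0 : stepsOK par ⟨358,11,6,1,7⟩ b69_0 s69_0 a69_0 = true := by decide +kernel
theorem c70_0 : stepsOK par ⟨353,11,6,1,7⟩ b70_0 s70_0 a70_0 = true := by decide +kernel
theorem c71_0 : stepsOK par ⟨358,11,6,1,7⟩ b71_0 s71_0 a71_0 = true := by decide +kernel
theorem c71_1 : stepsOK par ⟨8,11,6,1,7⟩ b71_1 s71_1 a71_1 = true := by decide +kernel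
theorem c72_0 : stepsOK par ⟨356,11,6,1,7⟩ b72_0 s72_0 a72_0 = true := by decide +kernel
theorem c73_0 : stepsOK par ⟨357,11,6,1,7⟩ b73_0 s73_0 a73_0 = true := by decide +kernel
theorem c74_0 : stepsOK par ⟨358,11,6,1,7⟩ b74_0 s74_0 a74_0 = true := by decide +kernel
theorem c75_0 : stepsOK par ⟨352,11,6,1,7⟩ b75_0 s75_0 a75_0 = true := by decide +kernel
theorem c76_0 : stepsOK par ⟨353,11,6,1,7⟩ b76_0 s76_0 a76_0 = true := by decide +kernel
theorem c77_0 : stepsOK par ⟨356,11,6,1,7⟩ b77_0 s77_0 a77_0 = true := by decide +kernel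
theorem c78_0 : stepsOK par ⟨358,11,6,1,7⟩ b78_0 s78_0 a78_0 = true := by decide +kernel
theorem c79_0 : stepsOK par ⟨358,11,6,1,7⟩ b79_0 s79_0 a79_0 = true := by decide +kernel
theorem c80_0 : stepsOK par ⟨355,11,6,1,7⟩ b80_0 s80_0 a80_0 = true := by decide +kernel
theorem c81_0 : stepsOK par ⟨358,11,6,1,7⟩ b81_0 s81_0 a81_0 = true := by decide +kernel
theorem c82_0 : stepsOK par ⟨358,11,6,1,7⟩ b82_0 s82_0 a82_0 = true := by decide +kernel
theorem c83_0 : stepsOK par ⟨353,11,6,1,7⟩ b83_0 s83_0 a83_0 = true := by decide +kernel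
theorem c84_0 : stepsOK par ⟨355,11,6,1,7⟩ b84_0 s84_0 a84_0 = true := by decide +kernel
theorem c85_0 : stepsOK par ⟨358,11,6,1,7⟩ b85_0 s85_0 a85_0 = true := by decide +kernel
theorem c86_0 : stepsOK par ⟨358,11,6,1,7⟩ b86_0 s86_0 a86_0 = true := by decide +kernel
theorem c87_0 : stepsOK par ⟨357,11,6,1,7⟩ b87_0 s87_0 a87_0 = true := by decide +kernel
theorem c87_1 : stepsOK par ⟨358,11,6,1,7⟩ b87_1 s87_1 a87_1 = true := by decide +kernel
theorem c88_0 : stepsOK par ⟨349,11,6,1,7⟩ b88_0 s88_0 a88_0 = true := by decide +kernel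
theorem c89_0 : stepsOK par ⟨351,11,6,1,7⟩ b89_0 s89_0 a89_0 = true := by decide +kernel
theorem c90_0 : stepsOK par ⟨354,11,6,1,7⟩ b90_0 s90_0 a90_0 = true := by decide +kernel

end Crest.Agent.R163.b4G
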