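import Crest.Agent.R163.Q3.D.b4G.S3

set_option autoImplicit false
set_option maxRecDepth 100000
set_option linter.all false

namespace Crest.Agent.R163.b4G

theorem c91_0 : stepsOK par ⟨356,11,6,1,7⟩ b91_0 s91_0 a91_0 = true := by decide +kernel
theorem c92_0 : stepsOK par ⟨358,11,6,1,7⟩ b92_0 s92_0 a92_0 = true := by decide +kernel
theorem c93_0 : stepsOK par ⟨358,11,6,1,7⟩ b93_0 s93_0 a93_0 = true := by decide +kernel
theorem c94_0 : stepsOK par ⟨354,11,6,1,7⟩ b94_0 s94_0 a94_0 = true := by decide +kernel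
theorem c95_0 : stepsOK par ⟨358,11,6,1,7⟩ b95_0 s95_0 a95_0 = true := by decide +kernel
theorem c96_0 : stepsOK par ⟨358,11,6,1,7⟩ b96_0 s96_0 a96_0 = true := by decide +kernel
theorem c97_0 : stepsOK par ⟨353,11,6,1,7⟩ b97_0 s97_0 a97_0 = true := by decide +kernel
theorem c98_0 : stepsOK par ⟨355,11,6,1,7⟩ b98_0 s98_0 a98_0 = true := by decide +kernel
theorem c99_0 : stepsOK par ⟨358,11,6,1,7⟩ b99_0 s99_0 a99_0 = true := by decide +kernel
theorem c100_0 : stepsOK par ⟨358,11,6,1,7⟩ b100_0 s100_0 a100_0 = true := by decide +kernel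
theorem c101_0 : stepsOK par ⟨355,11,6,1,7⟩ b101_0 s101_0 a101_0 = true := by decide +kernel
theorem c102_0 : stepsOK par ⟨358,11,6,1,7⟩ b102_0 s102_0 a102_0 = true := by decide +kernel
theorem c103_0 : stepsOK par ⟨358,11,6,1,7⟩ b103_0 s103_0 a103_0 = true := by decide +kernel
theorem c104_0 : stepsOK par ⟨351,11,6,1,7⟩ b104_0 s104_0 a104_0 = true := by decide +kernel
theorem c105_0 : stepsOK par ⟨353,11,6,1,7⟩ b105_0 s105_0 a105_0 = true := by decide +kernel
theorem c106_0 : stepsOK par ⟨355,11,6,1,7⟩ b106_0 s106_0 a106_0 = true := by decide +kernel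
theorem c107_0 : stepsOK par ⟨358,11,6,1,7⟩ b107_0 s107_0 a107_0 = true := by decide +kernel
theorem c108_0 : stepsOK par ⟨358,11,6,1,7⟩ b108_0 s108_0 a108_0 = true := by decide +kernel
theorem c109_0 : stepsOK par ⟨354,11,6,1,7⟩ b109_0 s109_0 a109_0 = true := by decide +kernel
theorem c110_0 : stepsOK par ⟨358,11,6,1,7⟩ b110_0 s110_0 a110_0 = true := by decide +kernel
theorem c111_0 : stepsOK par ⟨358,11,6,1,7⟩ b111_0 s111_0 a111_0 = true := by decide +kernel
theorem c112_0 : stepsOK par ⟨354,11,6,1,7⟩ b112_0 s112_0 a112_0 = true := by decide +kernel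
theorem c113_0 : stepsOK par ⟨354,11,6,1,7⟩ b113_0 s113_0 a113_0 = true := by decide +kernel
theorem c114_0 : stepsOK par ⟨358,11,6,1,7⟩ b114_0 s114_0 a114_0 = true := by decide +kernel
theorem c115_0 : stepsOK par ⟨358,11,6,1,7⟩ b115_0 s115_0 a115_0 = true := by decide +kernel

end Crest.Agent.R163.b4G
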