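import Crest.Agent.R163.Q3.D.b4G.S4

set_option autoImplicit false
set_option maxRecDepth 100000
set_option linter.all false

namespace Crest.Agent.R163.b4G

theorem c116_0 : stepsOK par ⟨358,11,6,1,7⟩ b116_0 s116_0 a116_0 = true := by decide +kernel
theorem c117_0 : stepsOK par ⟨351,11,6,1,7⟩ b117_0 s117_0 a117_0 = true := by decide +kernel
theorem c118_0 : stepsOK par ⟨350,11,6,1,7⟩ b118_0 s118_0 a118_0 = true := by decide +kernel
theorem c119_0 : stepsOK par ⟨350,11,6,1,7⟩ b119_0 s119_0 a119_0 = true := by decide +kernel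
theorem c120_0 : stepsOK par ⟨349,11,6,1,7⟩ b120_0 s120_0 a120_0 = true := by decide +kernel
theorem c121_0 : stepsOK par ⟨353,11,6,1,7⟩ b121_0 s121_0 a121_0 = true := by decide +kernel
theorem c122_0 : stepsOK par ⟨353,11,6,1,7⟩ b122_0 s122_0 a122_0 = true := by decide +kernel
theorem c123_0 : stepsOK par ⟨356,11,6,1,7⟩ b123_0 s123_0 a123_0 = true := by decide +kernel
theorem c124_0 : stepsOK par ⟨358,11,6,1,7⟩ b124_0 s124_0 a124_0 = true := by decide +kernel
theorem c125_0 : stepsOK par ⟨358,11,6,1,7⟩ b125_0 s125_0 a125_0 = true := by decide +kernel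
theorem c126_0 : stepsOK par ⟨356,11,6,1,7⟩ b126_0 s126_0 a126_0 = true := by decide +kernel
theorem c127_0 : stepsOK par ⟨358,11,6,1,7⟩ b127_0 s127_0 a127_0 = true := by decide +kernel
theorem c128_0 : stepsOK par ⟨358,11,6,1,7⟩ b128_0 s128_0 a128_0 = true := by decide +kernel
theorem c129_0 : stepsOK par ⟨354,11,6,1,7⟩ b129_0 s129_0 a129_0 = true := by decide +kernel
theorem c130_0 : stepsOK par ⟨355,11,6,1,7⟩ b130_0 s130_0 a130_0 = true := by decide +kernel
theorem c131_0 : stepsOK par ⟨358,11,6,1,7⟩ b131_0 s131_0 a131_0 = true := by decide +kernel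
theorem c132_0 : stepsOK par ⟨358,11,6,1,7⟩ b132_0 s132_0 a132_0 = true := by decide +kernel
theorem c133_0 : stepsOK par ⟨354,11,6,1,7⟩ b133_0 s133_0 a133_0 = true := by decide +kernel
theorem c134_0 : stepsOK par ⟨358,11,6,1,7⟩ b134_0 s134_0 a134_0 = true := by decide +kernel
theorem c135_0 : stepsOK par ⟨358,11,6,1,7⟩ b135_0 s135_0 a135_0 = true := by decide +kernel
theorem c136_0 : stepsOK par ⟨352,11,6,1,7⟩ b136_0 s136_0 a136_0 = true := by decide +kernel
theorem c137_0 : stepsOK par ⟨354,11,6,1,7⟩ b137_0 s137_0 a137_0 = true := by decide +kernel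
theorem c138_0 : stepsOK par ⟨353,11,6,1,7⟩ b138_0 s138_0 a138_0 = true := by decide +kernel
theorem c139_0 : stepsOK par ⟨358,11,6,1,7⟩ b139_0 s139_0 a139_0 = true := by decide +kernel
theorem c139_1 : stepsOK par ⟨8,11,6,1,7⟩ b139_1 s139_1 a139_1 = true := by decide +kernel
theorem c140_0 : stepsOK par ⟨356,11,6,1,7⟩ b140_0 s140_0 a140_0 = true := by decide +kernel
theorem c141_0 : stepsOK par ⟨358,11,6,1,7⟩ b141_0 s141_0 a141_0 = true := by decide +kernel
theorem c142_0 : stepsOK par ⟨358,11,6,1,7⟩ b142_0 s142_0 a142_0 = true := by decide +kernel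

end Crest.Agent.R163.b4G
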