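import Crest.Agent.R163.Q3.D.b4G.S5

set_option autoImplicit false
set_option maxRecDepth 100000
set_option linter.all false

namespace Crest.Agent.R163.b4G

theorem c143_0 : stepsOK par ⟨355,11,6,1,7⟩ b143_0 s143_0 a143_0 = true := by decide +kernel
theorem c144_0 : stepsOK par ⟨358,11,6,1,7⟩ b144_0 s144_0 a144_0 = true := by decide +kernel
theorem c145_0 : stepsOK par ⟨356,11,6,1,7⟩ b145_0 s145_0 a145_0 = true := by decide +kernel
theorem c146_0 : stepsOK par ⟨358,11,6,1,7⟩ b146_0 s146_0 a146_0 = true := by decide +kernel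
theorem c147_0 : stepsOK par ⟨358,11,6,1,7⟩ b147_0 s147_0 a147_0 = true := by decide +kernel
theorem c148_0 : stepsOK par ⟨353,11,6,1,7⟩ b148_0 s148_0 a148_0 = true := by decide +kernel
theorem c149_0 : stepsOK par ⟨355,11,6,1,7⟩ b149_0 s149_0 a149_0 = true := by decide +kernel
theorem c150_0 : stepsOK par ⟨358,11,6,1,7⟩ b150_0 s150_0 a150_0 = true := by decide +kernel
theorem c151_0 : stepsOK par ⟨355,11,6,1,7⟩ b151_0 s151_0 a151_0 = true := by decide +kernel
theorem c152_0 : stepsOK par ⟨358,11,6,1,7⟩ b152_0 s152_0 a152_0 = true := by decide +kernel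
theorem c153_0 : stepsOK par ⟨358,11,6,1,7⟩ b153_0 s153_0 a153_0 = true := by decide +kernel
theorem c154_0 : stepsOK par ⟨354,11,6,1,7⟩ b154_0 s154_0 a154_0 = true := by decide +kernel
theorem c155_0 : stepsOK par ⟨358,11,6,1,7⟩ b155_0 s155_0 a155_0 = true := by decide +kernel
theorem c156_0 : stepsOK par ⟨358,11,6,1,7⟩ b156_0 s156_0 a156_0 = true := by decide +kernel
theorem c156_1 : stepsOK par ⟨353,11,6,1,7⟩ b156_1 s156_1 a156_1 = true := by decide +kernel
theorem c157_0 : stepsOK par ⟨350,11,6,1,7⟩ b157_0 s157_0 a157_0 = true := by decide +kernel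
theorem c158_0 : stepsOK par ⟨352,11,6,1,7⟩ b158_0 s158_0 a158_0 = true := by decide +kernel
theorem c159_0 : stepsOK par ⟨353,11,6,1,7⟩ b159_0 s159_0 a159_0 = true := by decide +kernel
theorem c160_0 : stepsOK par ⟨355,11,6,1,7⟩ b160_0 s160_0 a160_0 = true := by decide +kernel
theorem c161_0 : stepsOK par ⟨358,11,6,1,7⟩ b161_0 s161_0 a161_0 = true := by decide +kernel
theorem c162_0 : stepsOK par ⟨358,11,6,1,7⟩ b162_0 s162_0 a162_0 = true := by decide +kernel
theorem c163_0 : stepsOK par ⟨354,11,6,1,7⟩ b163_0 s163_0 a163_0 = true := by decide +kernel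
theorem c164_0 : stepsOK par ⟨356,11,6,1,7⟩ b164_0 s164_0 a164_0 = true := by decide +kernel
theorem c165_0 : stepsOK par ⟨358,11,6,1,7⟩ b165_0 s165_0 a165_0 = true := by decide +kernel
theorem c166_0 : stepsOK par ⟨358,11,6,1,7⟩ b166_0 s166_0 a166_0 = true := by decide +kernel
theorem c167_0 : stepsOK par ⟨355,11,6,1,7⟩ b167_0 s167_0 a167_0 = true := by decide +kernel
theorem c168_0 : stepsOK par ⟨358,11,6,1,7⟩ b168_0 s168_0 a168_0 = true := by decide +kernel

end Crest.Agent.R163.b4G
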