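import Crest.Agent.R163.Q3.D.b4G.S6

set_option autoImplicit false
set_option maxRecDepth 100000
set_option linter.all false

namespace Crest.Agent.R163.b4G

theorem c169_0 : stepsOK par ⟨358,11,6,1,7⟩ b169_0 s169_0 a169_0 = true := by decide +kernel
theorem c170_0 : stepsOK par ⟨352,11,6,1,7⟩ b170_0 s170_0 a170_0 = true := by decide +kernel
theorem c171_0 : stepsOK par ⟨355,11,6,1,7⟩ b171_0 s171_0 a171_0 = true := by decide +kernel
theorem c172_0 : stepsOK par ⟨355,11,6,1,7⟩ b172_0 s172_0 a172_0 = true := by decide +kernel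
theorem c173_0 : stepsOK par ⟨358,11,6,1,7⟩ b173_0 s173_0 a173_0 = true := by decide +kernel
theorem c174_0 : stepsOK par ⟨358,11,6,1,7⟩ b174_0 s174_0 a174_0 = true := by decide +kernel
theorem c175_0 : stepsOK par ⟨354,11,6,1,7⟩ b175_0 s175_0 a175_0 = true := by decide +kernel
theorem c176_0 : stepsOK par ⟨352,11,6,1,7⟩ b176_0 s176_0 a176_0 = true := by decide +kernel
theorem c177_0 : stepsOK par ⟨358,11,6,1,7⟩ b177_0 s177_0 a177_0 = true := by decide +kernel
theorem c178_0 : stepsOK par ⟨358,11,6,1,7⟩ b178_0 s178_0 a178_0 = true := by decide +kernel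
theorem c179_0 : stepsOK par ⟨358,11,6,1,7⟩ b179_0 s179_0 a179_0 = true := by decide +kernel
theorem c180_0 : stepsOK par ⟨354,11,6,1,7⟩ b180_0 s180_0 a180_0 = true := by decide +kernel
theorem c181_0 : stepsOK par ⟨356,11,6,1,7⟩ b181_0 s181_0 a181_0 = true := by decide +kernel
theorem c182_0 : stepsOK par ⟨358,11,6,1,7⟩ b182_0 s182_0 a182_0 = true := by decide +kernel
theorem c183_0 : stepsOK par ⟨358,11,6,1,7⟩ b183_0 s183_0 a183_0 = true := by decide +kernel
theorem c184_0 : stepsOK par ⟨358,11,6,1,7⟩ b184_0 s184_0 a184_0 = true := by decide +kernel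
theorem c184_1 : stepsOK par ⟨8,11,6,1,7⟩ b184_1 s184_1 a184_1 = true := by decide +kernel
theorem c185_0 : stepsOK par ⟨352,11,6,1,7⟩ b185_0 s185_0 a185_0 = true := by decide +kernel
theorem c186_0 : stepsOK par ⟨353,11,6,1,7⟩ b186_0 s186_0 a186_0 = true := by decide +kernel
theorem c187_0 : stepsOK par ⟨354,11,6,1,7⟩ b187_0 s187_0 a187_0 = true := by decide +kernel
theorem c188_0 : stepsOK par ⟨358,11,6,1,7⟩ b188_0 s188_0 a188_0 = true := by decide +kernel
theorem c188_1 : stepsOK par ⟨8,11,6,1,7⟩ b188_1 s188_1 a188_1 = true := by decide +kernel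
theorem c189_0 : stepsOK par ⟨355,11,6,1,7⟩ b189_0 s189_0 a189_0 = true := by decide +kernel
theorem c190_0 : stepsOK par ⟨358,11,6,1,7⟩ b190_0 s190_0 a190_0 = true := by decide +kernel
theorem c191_0 : stepsOK par ⟨358,11,6,1,7⟩ b191_0 s191_0 a191_0 = true := by decide +kernel
theorem c192_0 : stepsOK par ⟨354,11,6,1,7⟩ b192_0 s192_0 a192_0 = true := by decide +kernel
theorem c193_0 : stepsOK par ⟨351,11,6,1,7⟩ b193_0 s193_0 a193_0 = true := by decide +kernel
theorem c194_0 : stepsOK par ⟨358,11,6,1,7⟩ b194_0 s194_0 a194_0 = true := by decide +kernel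
theorem c195_0 : stepsOK par ⟨358,11,6,1,7⟩ b195_0 s195_0 a195_0 = true := by decide +kernel
theorem c196_0 : stepsOK par ⟨357,11,6,1,7⟩ b196_0 s196_0 a196_0 = true := by decide +kernel
theorem c197_0 : stepsOK par ⟨358,11,6,1,7⟩ b197_0 s197_0 a197_0 = true := by decide +kernel
theorem c198_0 : stepsOK par ⟨358,11,6,1,7⟩ b198_0 s198_0 a198_0 = true := by decide +kernel

end Crest.Agent.R163.b4G
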