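import Crest.Agent.R163.Q3.D.b4G.S7

set_option autoImplicit false
set_option maxRecDepth 100000
set_option linter.all false

namespace Crest.Agent.R163.b4G

theorem c199_0 : stepsOK par ⟨353,11,6,1,7⟩ b199_0 s199_0 a199_0 = true := by decide +kernel
theorem c200_0 : stepsOK par ⟨353,11,6,1,7⟩ b200_0 s200_0 a200_0 = true := by decide +kernel
theorem c201_0 : stepsOK par ⟨360,11,6,1,7⟩ b201_0 s201_0 a201_0 = true := by decide +kernel
theorem c202_0 : stepsOK par ⟨356,11,6,1,7⟩ b202_0 s202_0 a202_0 = true := by decide +kernel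
theorem c203_0 : stepsOK par ⟨358,11,6,1,7⟩ b203_0 s203_0 a203_0 = true := by decide +kernel
theorem c204_0 : stepsOK par ⟨358,11,6,1,7⟩ b204_0 s204_0 a204_0 = true := by decide +kernel
theorem c205_0 : stepsOK par ⟨358,11,6,1,7⟩ b205_0 s205_0 a205_0 = true := by decide +kernel
theorem c206_0 : stepsOK par ⟨352,11,6,1,7⟩ b206_0 s206_0 a206_0 = true := by decide +kernel
theorem c207_0 : stepsOK par ⟨353,11,6,1,7⟩ b207_0 s207_0 a207_0 = true := by decide +kernel
theorem c208_0 : stepsOK par ⟨354,11,6,1,7⟩ b208_0 s208_0 a208_0 = true := by decide +kernel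
theorem c209_0 : stepsOK par ⟨355,11,6,1,7⟩ b209_0 s209_0 a209_0 = true := by decide +kernel
theorem c210_0 : stepsOK par ⟨354,11,6,1,7⟩ b210_0 s210_0 a210_0 = true := by decide +kernel
theorem c211_0 : stepsOK par ⟨358,11,6,1,7⟩ b211_0 s211_0 a211_0 = true := by decide +kernel
theorem c212_0 : stepsOK par ⟨358,11,6,1,7⟩ b212_0 s212_0 a212_0 = true := by decide +kernel
theorem c213_0 : stepsOK par ⟨357,11,6,1,7⟩ b213_0 s213_0 a213_0 = true := by decide +kernel
theorem c214_0 : stepsOK par ⟨358,11,6,1,7⟩ b214_0 s214_0 a214_0 = true := by decide +kernel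
theorem c215_0 : stepsOK par ⟨358,11,6,1,7⟩ b215_0 s215_0 a215_0 = true := by decide +kernel
theorem c215_1 : stepsOK par ⟨8,11,6,1,7⟩ b215_1 s215_1 a215_1 = true := by decide +kernel
theorem c216_0 : stepsOK par ⟨354,11,6,1,7⟩ b216_0 s216_0 a216_0 = true := by decide +kernel
theorem c217_0 : stepsOK par ⟨354,11,6,1,7⟩ b217_0 s217_0 a217_0 = true := by decide +kernel
theorem c218_0 : stepsOK par ⟨358,11,6,1,7⟩ b218_0 s218_0 a218_0 = true := by decide +kernel
theorem c219_0 : stepsOK par ⟨357,11,6,1,7⟩ b219_0 s219_0 a219_0 = true := by decide +kernel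
theorem c220_0 : stepsOK par ⟨358,11,6,1,7⟩ b220_0 s220_0 a220_0 = true := by decide +kernel
theorem c221_0 : stepsOK par ⟨358,11,6,1,7⟩ b221_0 s221_0 a221_0 = true := by decide +kernel
theorem c222_0 : stepsOK par ⟨355,11,6,1,7⟩ b222_0 s222_0 a222_0 = true := by decide +kernel
theorem c223_0 : stepsOK par ⟨357,11,6,1,7⟩ b223_0 s223_0 a223_0 = true := by decide +kernel
theorem c224_0 : stepsOK par ⟨358,11,6,1,7⟩ b224_0 s224_0 a224_0 = true := by decide +kernel
theorem c225_0 : stepsOK par ⟨358,11,6,1,7⟩ b225_0 s225_0 a225_0 = true := by decide +kernel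
theorem c226_0 : stepsOK par ⟨353,11,6,1,7⟩ b226_0 s226_0 a226_0 = true := by decide +kernel
theorem c227_0 : stepsOK par ⟨356,11,6,1,7⟩ b227_0 s227_0 a227_0 = true := by decide +kernel
theorem c228_0 : stepsOK par ⟨358,11,6,1,7⟩ b228_0 s228_0 a228_0 = true := by decide +kernel

end Crest.Agent.R163.b4G
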