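import Crest.Agent.R163.Q3.D.b4G.S8

set_option autoImplicit false
set_option maxRecDepth 100000
set_option linter.all false

namespace Crest.Agent.R163.b4G

theorem c229_0 : stepsOK par ⟨358,11,6,1,7⟩ b229_0 s229_0 a229_0 = true := by decide +kernel
theorem c230_0 : stepsOK par ⟨358,11,6,1,7⟩ b230_0 s230_0 a230_0 = true := by decide +kernel
theorem c231_0 : stepsOK par ⟨353,11,6,1,7⟩ b231_0 s231_0 a231_0 = true := by decide +kernel
theorem c232_0 : stepsOK par ⟨353,11,6,1,7⟩ b232_0 s232_0 a232_0 = true := by decide +kernel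
theorem c233_0 : stepsOK par ⟨355,11,6,1,7⟩ b233_0 s233_0 a233_0 = true := by decide +kernel
theorem c234_0 : stepsOK par ⟨355,11,6,1,7⟩ b234_0 s234_0 a234_0 = true := by decide +kernel
theorem c235_0 : stepsOK par ⟨358,11,6,1,7⟩ b235_0 s235_0 a235_0 = true := by decide +kernel
theorem c236_0 : stepsOK par ⟨358,11,6,1,7⟩ b236_0 s236_0 a236_0 = true := by decide +kernel
theorem c237_0 : stepsOK par ⟨353,11,6,1,7⟩ b237_0 s237_0 a237_0 = true := by decide +kernel
theorem c238_0 : stepsOK par ⟨358,11,6,1,7⟩ b238_0 s238_0 a238_0 = true := by decide +kernel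
theorem c239_0 : stepsOK par ⟨357,11,6,1,7⟩ b239_0 s239_0 a239_0 = true := by decide +kernel
theorem c240_0 : stepsOK par ⟨358,11,6,1,7⟩ b240_0 s240_0 a240_0 = true := by decide +kernel
theorem c241_0 : stepsOK par ⟨358,11,6,1,7⟩ b241_0 s241_0 a241_0 = true := by decide +kernel
theorem c242_0 : stepsOK par ⟨355,11,6,1,7⟩ b242_0 s242_0 a242_0 = true := by decide +kernel
theorem c243_0 : stepsOK par ⟨356,11,6,1,7⟩ b243_0 s243_0 a243_0 = true := by decide +kernel
theorem c244_0 : stepsOK par ⟨358,11,6,1,7⟩ b244_0 s244_0 a244_0 = true := by decide +kernel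
theorem c245_0 : stepsOK par ⟨358,11,6,1,7⟩ b245_0 s245_0 a245_0 = true := by decide +kernel
theorem c246_0 : stepsOK par ⟨356,11,6,1,7⟩ b246_0 s246_0 a246_0 = true := by decide +kernel
theorem c247_0 : stepsOK par ⟨358,11,6,1,7⟩ b247_0 s247_0 a247_0 = true := by decide +kernel
theorem c248_0 : stepsOK par ⟨358,11,6,1,7⟩ b248_0 s248_0 a248_0 = true := by decide +kernel
theorem c249_0 : stepsOK par ⟨358,11,6,1,7⟩ b249_0 s249_0 a249_0 = true := by decide +kernel
theorem c250_0 : stepsOK par ⟨358,11,6,1,7⟩ b250_0 s250_0 a250_0 = true := by decide +kernel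
theorem c251_0 : stepsOK par ⟨353,11,6,1,7⟩ b251_0 s251_0 a251_0 = true := by decide +kernel
theorem c252_0 : stepsOK par ⟨353,11,6,1,7⟩ b252_0 s252_0 a252_0 = true := by decide +kernel
theorem c253_0 : stepsOK par ⟨356,11,6,1,7⟩ b253_0 s253_0 a253_0 = true := by decide +kernel
theorem c254_0 : stepsOK par ⟨358,11,6,1,7⟩ b254_0 s254_0 a254_0 = true := by decide +kernel
theorem c255_0 : stepsOK par ⟨358,11,6,1,7⟩ b255_0 s255_0 a255_0 = true := by decide +kernel
theorem c256_0 : stepsOK par ⟨356,11,6,1,7⟩ b256_0 s256_0 a256_0 = true := by decide +kernel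
theorem c257_0 : stepsOK par ⟨352,11,6,1,7⟩ b257_0 s257_0 a257_0 = true := by decide +kernel
theorem c258_0 : stepsOK par ⟨358,11,6,1,7⟩ b258_0 s258_0 a258_0 = true := by decide +kernel
theorem c259_0 : stepsOK par ⟨358,11,6,1,7⟩ b259_0 s259_0 a259_0 = true := by decide +kernel
theorem c260_0 : stepsOK par ⟨358,11,6,1,7⟩ b260_0 s260_0 a260_0 = true := by decide +kernel

end Crest.Agent.R163.b4G
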