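import Crest.Agent.R163.Q3.D.b4G.S9

set_option autoImplicit false
set_option maxRecDepth 100000
set_option linter.all false

namespace Crest.Agent.R163.b4G

theorem c261_0 : stepsOK par ⟨355,11,6,1,7⟩ b261_0 s261_0 a261_0 = true := by decide +kernel
theorem c262_0 : stepsOK par ⟨356,11,6,1,7⟩ b262_0 s262_0 a262_0 = true := by decide +kernel
theorem c263_0 : stepsOK par ⟨358,11,6,1,7⟩ b263_0 s263_0 a263_0 = true := by decide +kernel
theorem c264_0 : stepsOK par ⟨358,11,6,1,7⟩ b264_0 s264_0 a264_0 = true := by decide +kernel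
theorem c265_0 : stepsOK par ⟨352,11,6,1,7⟩ b265_0 s265_0 a265_0 = true := by decide +kernel
theorem c266_0 : stepsOK par ⟨355,11,6,1,7⟩ b266_0 s266_0 a266_0 = true := by decide +kernel
theorem c267_0 : stepsOK par ⟨358,11,6,1,7⟩ b267_0 s267_0 a267_0 = true := by decide +kernel
theorem c268_0 : stepsOK par ⟨356,11,6,1,7⟩ b268_0 s268_0 a268_0 = true := by decide +kernel
theorem c269_0 : stepsOK par ⟨358,11,6,1,7⟩ b269_0 s269_0 a269_0 = true := by decide +kernel
theorem c270_0 : stepsOK par ⟨358,11,6,1,7⟩ b270_0 s270_0 a270_0 = true := by decide +kernel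
theorem c271_0 : stepsOK par ⟨358,11,6,1,7⟩ b271_0 s271_0 a271_0 = true := by decide +kernel
theorem c271_1 : stepsOK par ⟨358,11,6,1,7⟩ b271_1 s271_1 a271_1 = true := by decide +kernel
theorem c272_0 : stepsOK par ⟨352,11,6,1,7⟩ b272_0 s272_0 a272_0 = true := by decide +kernel
theorem c273_0 : stepsOK par ⟨352,11,6,1,7⟩ b273_0 s273_0 a273_0 = true := by decide +kernel
theorem c274_0 : stepsOK par ⟨355,11,6,1,7⟩ b274_0 s274_0 a274_0 = true := by decide +kernel
theorem c275_0 : stepsOK par ⟨354,11,6,1,7⟩ b275_0 s275_0 a275_0 = true := by decide +kernel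
theorem c276_0 : stepsOK par ⟨355,11,6,1,7⟩ b276_0 s276_0 a276_0 = true := by decide +kernel
theorem c277_0 : stepsOK par ⟨358,11,6,1,7⟩ b277_0 s277_0 a277_0 = true := by decide +kernel
theorem c278_0 : stepsOK par ⟨358,11,6,1,7⟩ b278_0 s278_0 a278_0 = true := by decide +kernel
theorem c279_0 : stepsOK par ⟨356,11,6,1,7⟩ b279_0 s279_0 a279_0 = true := by decide +kernel
theorem c280_0 : stepsOK par ⟨358,11,6,1,7⟩ b280_0 s280_0 a280_0 = true := by decide +kernel
theorem c281_0 : stepsOK par ⟨355,11,6,1,7⟩ b281_0 s281_0 a281_0 = true := by decide +kernel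
theorem c282_0 : stepsOK par ⟨358,11,6,1,7⟩ b282_0 s282_0 a282_0 = true := by decide +kernel
theorem c283_0 : stepsOK par ⟨358,11,6,1,7⟩ b283_0 s283_0 a283_0 = true := by decide +kernel
theorem c284_0 : stepsOK par ⟨355,11,6,1,7⟩ b284_0 s284_0 a284_0 = true := by decide +kernel
theorem c285_0 : stepsOK par ⟨355,11,6,1,7⟩ b285_0 s285_0 a285_0 = true := by decide +kernel
theorem c286_0 : stepsOK par ⟨358,11,6,1,7⟩ b286_0 s286_0 a286_0 = true := by decide +kernel
theorem c287_0 : stepsOK par ⟨358,11,6,1,7⟩ b287_0 s287_0 a287_0 = true := by decide +kernel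
theorem c288_0 : stepsOK par ⟨352,11,6,1,7⟩ b288_0 s288_0 a288_0 = true := by decide +kernel
theorem c289_0 : stepsOK par ⟨358,11,6,1,7⟩ b289_0 s289_0 a289_0 = true := by decide +kernel
theorem c290_0 : stepsOK par ⟨357,11,6,1,7⟩ b290_0 s290_0 a290_0 = true := by decide +kernel
theorem c291_0 : stepsOK par ⟨358,11,6,1,7⟩ b291_0 s291_0 a291_0 = true := by decide +kernel

end Crest.Agent.R163.b4G
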